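import Mathlib

/-! # P097 / row A5.W-GEO, part 1: the auxiliary function of the discs, interior lower bounds -/

set_option linter.all false

open Complex Metric Filter Topology Set

namespace Vale.Agent.P097.H400

/-- **lower bound by the barrier `(1 - η/d)² - (x'-x)²/d²`** -/
theorem hm_low {f : ℂ → ℂ} {δ : ℝ} (hδ : 0 < δ) (hf : DifferentiableOn ℂ f {w | -δ < w.im})
    (h0 : ∀ w : ℂ, 0 ≤ w.im → 0 ≤ (f w).re) {x d κ : ℝ} (hd : 0 < d) (hκ : 0 ≤ κ)
    (h1 : ∀ x' : ℝ, |x' - x| ≤ d → κ ≤ (f x').re) {w : ℂ} (hw : w.re = x) (hw0 : 0 ≤ w.im)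
    (hwd : w.im ≤ d / 2) : κ / 4 ≤ (f w).re := by
  set U : Set ℂ := {z | ‖z - x‖ < d ∧ 0 < z.im} with hU
  set G : ℂ → ℂ := fun z => exp (κ * (1 + I * ((z - x) / d)) ^ 2 - f z) with hG
  have hUo : IsOpen U := by
    have o1 : IsOpen {z : ℂ | ‖z - x‖ < d} :=
      isOpen_lt (continuous_id.sub continuous_const).norm continuous_const
    exact o1.inter (isOpen_lt continuous_const continuous_im)
  have hUb : Bornology.IsBounded U :=
    (isBounded_ball (x := (x : ℂ)) (r := d)).subset fun z hz => by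
      rw [mem_ball, dist_eq_norm]; exact hz.1
  have hcl : closure U ⊆ {z | ‖z - x‖ ≤ d ∧ 0 ≤ z.im} := by
    apply closure_minimal
    · rintro z ⟨a, b⟩
      exact ⟨a.le, b.le⟩
    · have o1 : IsClosed {z : ℂ | ‖z - x‖ ≤ d} :=
        isClosed_le (continuous_id.sub continuous_const).norm continuous_const
      exact o1.inter (isClosed_le continuous_const continuous_im)
  have hsub : closure U ⊆ {w : ℂ | -δ < w.im} := fun z hz => by
    have := (hcl hz).2
    show -δ < z.im
    linarith
  have hop : IsOpen {w : ℂ | -δ < w.im} := isOpen_lt continuous_const continuous_im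
  have hGd : DifferentiableOn ℂ G {w | -δ < w.im} := by
    apply DifferentiableOn.cexp
    apply DifferentiableOn.sub _ hf
    fun_prop
  have hGc : DiffContOnCl ℂ G U :=
    ⟨hGd.mono fun z hz => hsub (subset_closure hz), hGd.continuousOn.mono hsub⟩
  have hre : ∀ z : ℂ, ((κ : ℂ) * (1 + I * ((z - x) / d)) ^ 2).re =
      κ * ((1 - z.im / d) ^ 2 - ((z.re - x) / d) ^ 2) := by
    intro z
    have e1 : ((z - x) / (d : ℂ)).re = (z.re - x) / d := by
      rw [div_ofReal_re]; simp
    have e2 : ((z - x) / (d : ℂ)).im = z.im / d := by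
      rw [div_ofReal_im]; simp
    rw [re_ofReal_mul, pow_two, mul_re, add_re, add_im, mul_re, mul_im, I_re, I_im, one_re,
      one_im, e1, e2]
    ring
  have hfr : ∀ z ∈ frontier U, ‖G z‖ ≤ 1 := by
    intro z hz
    have hz1 := hcl (frontier_subset_closure hz)
    have hz2 : z ∉ U := by
      rw [hUo.frontier_eq] at hz
      exact hz.2
    rw [hG]
    simp only
    rw [Complex.norm_exp, Real.exp_le_one_iff, sub_re, hre]
    have hfz := h0 z hz1.2
    by_cases him : 0 < z.im
    · have hn : ‖z - x‖ = d := by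
        by_contra hne
        exact hz2 ⟨lt_of_le_of_ne hz1.1 hne, him⟩
      have hsq : (z.re - x) ^ 2 + z.im ^ 2 = d ^ 2 := by
        have := Complex.sq_norm (z - x)
        rw [normSq_apply, hn] at this
        simp at this
        nlinarith
      have hid : z.im ≤ d := by
        have : z.im ^ 2 ≤ d ^ 2 := by nlinarith [sq_nonneg (z.re - x)]
        exact abs_le_of_sq_le_sq' this hd.le |>.2
      have e3 : (1 - z.im / d) ^ 2 - ((z.re - x) / d) ^ 2 ≤ 0 := by
        have e4 : (1 - z.im / d) ^ 2 - ((z.re - x) / d) ^ 2 =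
            ((d - z.im) ^ 2 - (z.re - x) ^ 2) / d ^ 2 := by
          field_simp
        rw [e4]
        apply div_nonpos_of_nonpos_of_nonneg _ (by positivity)
        nlinarith
      nlinarith
    · have hz0 : z.im = 0 := le_antisymm (not_lt.1 him) hz1.2
      have hzr : z = (z.re : ℂ) := by
        apply Complex.ext <;> simp [hz0]
      have hx : |z.re - x| ≤ d := by
        have := (Complex.abs_re_le_norm (z - x)).trans hz1.1
        simpa using this
      have h2 := h1 z.re hx
      rw [← hzr] at h2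
      rw [hz0]
      have e5 : (1 - 0 / d) ^ 2 - ((z.re - x) / d) ^ 2 ≤ 1 := by
        have := sq_nonneg ((z.re - x) / d)
        rw [zero_div]
        linarith
      nlinarith
  have hwU : w ∈ closure U := by
    rcases hw0.eq_or_lt with h | h
    · rw [mem_closure_iff_seq_limit]
      refine ⟨fun n : ℕ => w + ((d / 2 / (n + 1) : ℝ) : ℂ) * I, fun n => ?_, ?_⟩
      · have hp : 0 < d / 2 / ((n : ℝ) + 1) := by positivity
        have hq : d / 2 / ((n : ℝ) + 1) ≤ d / 2 := by
          apply div_le_self (by positivity)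
          linarith [(Nat.cast_nonneg n : (0 : ℝ) ≤ n)]
        have e1 : w + ((d / 2 / (n + 1) : ℝ) : ℂ) * I - x = ((d / 2 / (n + 1) : ℝ) : ℂ) * I := by
          apply Complex.ext
          · simp [hw]
          · simp [← h]
        refine ⟨?_, ?_⟩
        · show ‖w + ((d / 2 / (n + 1) : ℝ) : ℂ) * I - x‖ < d
          rw [e1, norm_mul, norm_I, mul_one, Complex.norm_real, Real.norm_of_nonneg hp.le]
          linarith
        · show 0 < (w + ((d / 2 / (n + 1) : ℝ) : ℂ) * I).im
          have e2 : (w + ((d / 2 / (n + 1) : ℝ) : ℂ) * I).im = d / 2 / (n + 1) := by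
            rw [add_im, ← h, zero_add, mul_I_im, ofReal_re]
          rw [e2]
          exact hp
      · have h3 : Tendsto (fun n : ℕ => d / 2 / ((n : ℝ) + 1)) atTop (𝓝 0) :=
          tendsto_const_nhds.div_atTop (tendsto_atTop_add_const_right _ _
            tendsto_natCast_atTop_atTop)
        have h4 : Tendsto (fun n : ℕ => w + ((d / 2 / ((n : ℝ) + 1) : ℝ) : ℂ) * I) atTop
            (𝓝 (w + ((0 : ℝ) : ℂ) * I)) :=
          tendsto_const_nhds.add (((continuous_ofReal.tendsto 0).comp h3).mul_const I)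
        simpa using h4
    · apply subset_closure
      refine ⟨?_, h⟩
      have e1 : w - x = (w.im : ℂ) * I := by
        apply Complex.ext <;> simp [hw]
      rw [e1, norm_mul, norm_I, mul_one, Complex.norm_real, Real.norm_of_nonneg hw0]
      linarith
  have key := Complex.norm_le_of_forall_mem_frontier_norm_le hUb hGc hfr hwU
  rw [hG] at key
  simp only at key
  rw [Complex.norm_exp, Real.exp_le_one_iff, sub_re, hre, hw] at key
  have e6 : (1 - w.im / d) ^ 2 - ((x - x) / d) ^ 2 ≥ 1 / 4 := by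
    have e7 : w.im / d ≤ 1 / 2 := by
      rw [div_le_iff₀ hd]; linarith
    rw [sub_self, zero_div]
    nlinarith
  nlinarith

/-- the profile -/
noncomputable def pr (r M x : ℝ) : ℝ := (r + |x|) / (M + Real.log (1 + |x| / r)) ^ 2

section
variable {r M x : ℝ}

theorem log_nn (hr : 0 < r) : 0 ≤ Real.log (1 + |x| / r) :=
  Real.log_nonneg (by have := div_nonneg (abs_nonneg x) hr.le; linarith)

theorem pr_pos (hr : 0 < r) (hM : 1 ≤ M) : 0 < pr r M x := by
  have h1 := log_nn (x := x) hr
  have h2 : 0 < M + Real.log (1 + |x| / r) := by linarith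
  exact div_pos (by have := abs_nonneg x; linarith) (by positivity)

theorem pr_le (hr : 0 < r) (hM : 1 ≤ M) : pr r M x ≤ r + |x| := by
  have h1 := log_nn (x := x) hr
  have h2 : 1 ≤ (M + Real.log (1 + |x| / r)) ^ 2 := by nlinarith
  exact div_le_self (by have := abs_nonneg x; linarith) h2

theorem pr_lip {x' : ℝ} (hr : 0 < r) (hM : 1 ≤ M) (h : |x' - x| ≤ (r + |x|) / 2) :
    2 / 9 * pr r M x ≤ pr r M x' := by
  have h1 := log_nn (x := x) hr
  have h1' := log_nn (x := x') hr
  set L := Real.log (1 + |x| / r)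
  have a1 : |x'| ≤ |x| + |x' - x| := by
    have := abs_add_le x (x' - x)
    rwa [add_sub_cancel] at this
  have a2 : |x| ≤ |x'| + |x' - x| := by
    have := abs_add_le x' (x - x')
    rw [add_sub_cancel, abs_sub_comm x x'] at this
    exact this
  have h2 : (r + |x|) / 2 ≤ r + |x'| := by linarith
  have h3 : Real.log (1 + |x'| / r) ≤ L + 1 / 2 := by
    have e1 : 1 + |x'| / r ≤ (1 + |x| / r) * (3 / 2) := by
      rw [← sub_nonneg]
      have : (1 + |x| / r) * (3 / 2) - (1 + |x'| / r) = ((r + |x|) * (3 / 2) - (r + |x'|)) / r := by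
        field_simp
      rw [this]
      apply div_nonneg _ hr.le
      linarith
    have p1 : 0 < 1 + |x'| / r := by have := div_nonneg (abs_nonneg x') hr.le; linarith
    have p2 : 0 < 1 + |x| / r := by have := div_nonneg (abs_nonneg x) hr.le; linarith
    have e2 := Real.log_le_log p1 e1
    rw [Real.log_mul p2.ne' (by norm_num)] at e2
    have e3 : Real.log (3 / 2) ≤ 1 / 2 := by
      have := Real.log_le_sub_one_of_pos (show (0 : ℝ) < 3 / 2 by norm_num)
      linarith
    linarith
  have h4 : 0 < M + L := by linarith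
  have h5 : 0 < M + Real.log (1 + |x'| / r) := by linarith
  have h6 : M + Real.log (1 + |x'| / r) ≤ 3 / 2 * (M + L) := by linarith
  have h7 : (M + Real.log (1 + |x'| / r)) ^ 2 ≤ 9 / 4 * (M + L) ^ 2 := by
    have := pow_le_pow_left₀ h5.le h6 2
    nlinarith
  unfold pr
  rw [le_div_iff₀ (by positivity)]
  have h8 : 0 ≤ 2 / 9 * ((r + |x|) / (M + L) ^ 2) := by
    have := abs_nonneg x; positivity
  calc 2 / 9 * ((r + |x|) / (M + L) ^ 2) * (M + Real.log (1 + |x'| / r)) ^ 2
      ≤ 2 / 9 * ((r + |x|) / (M + L) ^ 2) * (9 / 4 * (M + L) ^ 2) :=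
        mul_le_mul_of_nonneg_left h7 h8
    _ = (r + |x|) / 2 := by field_simp; ring
    _ ≤ r + |x'| := h2
end

/-- the auxiliary function (output of the row DISC1 of helper337 at one label and one scale) -/
structure D1 (A : Set ℝ) (u r ρ K M C₀ C ε : ℝ) (f : ℂ → ℂ) (β : ℝ) : Prop where
  hol : ∃ δ > 0, DifferentiableOn ℂ f {w | -δ < w.im}
  pos : ∀ w : ℂ, 0 ≤ w.im → 0 ≤ (f w).re
  bd : ∀ x : ℝ, |x - u| ≤ ρ → K * infDist x A +
    (r + |x - u|) / (4 * (M + Real.log (1 + |x - u| / r)) ^ 2) ≤ (f x).re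
  tg : ∀ w : ℂ, |w.re - u| ≤ C * r → r / C ≤ w.im → w.im ≤ C * r → ‖f w - I * β‖ ≤ ε * r
  lat : ∀ w : ℂ, 0 ≤ w.im → ‖w - u‖ ≤ ρ → ‖f w - I * β‖ ≤ C₀ * (r + ‖w - u‖)

section
variable {A : Set ℝ} {u r ρ K M C₀ C ε : ℝ} {f : ℂ → ℂ} {β : ℝ}

theorem D1.bd' (h : D1 A u r ρ K M C₀ C ε f β) {x : ℝ} (hx : |x - u| ≤ ρ) :
    K * infDist x A + pr r M (x - u) / 4 ≤ (f x).re := by
  have := h.bd x hx
  unfold pr
  rw [div_div, mul_comm _ (4 : ℝ)]
  exact this

/-- interior lower bound, gaps -/
theorem D1.low1 (h : D1 A u r ρ K M C₀ C ε f β) (hr : 0 < r) (hM : 1 ≤ M) (hK : 0 ≤ K)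
    (hu : u ∈ A) {w : ℂ} (hw : |w.re - u| ≤ ρ / 2) (hρ : 0 < ρ) (h0 : 0 ≤ w.im)
    (h1 : w.im ≤ infDist w.re A / 4) (h2 : 0 < infDist w.re A) :
    K * infDist w.re A / 8 ≤ (f w).re := by
  obtain ⟨δ, hδ, hf⟩ := h.hol
  have hD : infDist w.re A ≤ |w.re - u| := by
    have := infDist_le_dist_of_mem (x := w.re) hu
    rwa [Real.dist_eq] at this
  have := hm_low hδ hf h.pos (x := w.re) (d := infDist w.re A / 2)
    (κ := K * infDist w.re A / 2) (by positivity) (by positivity) (fun x' hx' => ?_) rfl h0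
    (by linarith)
  · linarith
  · have e1 : |x' - u| ≤ ρ := by
      have := abs_sub_le x' w.re u
      linarith
    have e2 := h.bd' e1
    have e3 : infDist w.re A ≤ infDist x' A + |x' - w.re| := by
      have := infDist_le_infDist_add_dist (s := A) (x := w.re) (y := x')
      rwa [Real.dist_eq, abs_sub_comm] at this
    have e4 : infDist w.re A / 2 ≤ infDist x' A := by linarith
    have e5 := pr_pos (x := x' - u) hr hM
    have e6 := mul_le_mul_of_nonneg_left e4 hK
    nlinarith

/-- interior lower bound, profile -/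
theorem D1.low2 (h : D1 A u r ρ K M C₀ C ε f β) (hr : 0 < r) (hM : 1 ≤ M) (hK : 0 ≤ K)
    {w : ℂ} (hw : |w.re - u| ≤ ρ / 2) (hrρ : r ≤ ρ / 2) (h0 : 0 ≤ w.im)
    (h1 : w.im ≤ (r + |w.re - u|) / 4) :
    pr r M (w.re - u) / 72 ≤ (f w).re := by
  obtain ⟨δ, hδ, hf⟩ := h.hol
  have hp := pr_pos (x := w.re - u) hr hM
  have := hm_low hδ hf h.pos (x := w.re) (d := (r + |w.re - u|) / 2)
    (κ := pr r M (w.re - u) / 18) (by have := abs_nonneg (w.re - u); positivity)
    (by positivity) (fun x' hx' => ?_) rfl h0 (by linarith)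
  · linarith
  · have e1 : |x' - u| ≤ ρ := by
      have := abs_sub_le x' w.re u
      linarith
    have e2 := h.bd' e1
    have e3 : 2 / 9 * pr r M (w.re - u) ≤ pr r M (x' - u) := by
      apply pr_lip hr hM
      have : x' - u - (w.re - u) = x' - w.re := by ring
      rw [this]
      exact hx'
    have e4 : 0 ≤ K * infDist x' A := mul_nonneg hK infDist_nonneg
    linarith
end

end Vale.Agent.P097.H400
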