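import Vale.Agent.P097.H400.GeoB0

/-! # P097 / row A5.W-GEO, part 2: the disc through a target, estimates of its coefficients -/

set_option linter.all false

open Complex Metric Filter Topology Set

namespace Vale.Agent.P097.H400

open Vale.Agent.P097.H85 Vale.Agent.P097.H929

/-- the disc over the second coordinate -/
noncomputable def TT (Ψ f : ℂ → ℂ) (u cc mm : ℝ) (w : ℂ) : ℂ :=
  Ψ w + cc + mm * (w - u) - I * f w - I * (w - u) ^ 2

theorem TT_im (Ψ f : ℂ → ℂ) (u cc mm : ℝ) (w : ℂ) : (TT Ψ f u cc mm w).im =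
    (Ψ w).im + mm * w.im - (f w).re - ((w.re - u) ^ 2 - w.im ^ 2) := by
  unfold TT
  simp only [sub_im, add_im, mul_im, mul_re, I_re, I_im, ofReal_re, ofReal_im, sub_re, pow_two]
  ring

theorem TT_diff {Ψ f : ℂ → ℂ} {u cc mm : ℝ} {U : Set ℂ} (h1 : DifferentiableOn ℂ Ψ U)
    (h2 : DifferentiableOn ℂ f U) : DifferentiableOn ℂ (TT Ψ f u cc mm) U := by
  unfold TT
  fun_prop

/-- choice of the coefficients -/
noncomputable def EE (Ψ f : ℂ → ℂ) (u : ℝ) (t₁ w₁ : ℂ) : ℂ :=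
  t₁ - Ψ w₁ + I * f w₁ + I * (w₁ - u) ^ 2

noncomputable def mmE (Ψ f : ℂ → ℂ) (u : ℝ) (t₁ w₁ : ℂ) : ℝ := (EE Ψ f u t₁ w₁).im / w₁.im

noncomputable def ccE (Ψ f : ℂ → ℂ) (u : ℝ) (t₁ w₁ : ℂ) : ℝ :=
  (EE Ψ f u t₁ w₁).re - mmE Ψ f u t₁ w₁ * (w₁.re - u)

theorem TT_target (Ψ f : ℂ → ℂ) (u : ℝ) (t₁ : ℂ) {w₁ : ℂ} (h : w₁.im ≠ 0) :
    TT Ψ f u (ccE Ψ f u t₁ w₁) (mmE Ψ f u t₁ w₁) w₁ = t₁ := by
  have e1 : ((ccE Ψ f u t₁ w₁ : ℝ) : ℂ) + (mmE Ψ f u t₁ w₁ : ℝ) * (w₁ - u) = EE Ψ f u t₁ w₁ := by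
    apply Complex.ext
    · simp only [add_re, mul_re, ofReal_re, ofReal_im, sub_re, sub_im, zero_mul, sub_zero, ccE]
      ring
    · simp only [add_im, mul_im, ofReal_re, ofReal_im, sub_re, sub_im, zero_mul, sub_zero,
        add_zero, zero_add, mmE]
      field_simp
  have e2 : TT Ψ f u (ccE Ψ f u t₁ w₁) (mmE Ψ f u t₁ w₁) w₁ =
      Ψ w₁ + (((ccE Ψ f u t₁ w₁ : ℝ) : ℂ) + (mmE Ψ f u t₁ w₁ : ℝ) * (w₁ - u)) - I * f w₁ -
        I * (w₁ - u) ^ 2 := by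
    unfold TT; ring
  rw [e2, e1]
  unfold EE
  ring

/-- the constants of the target -/
structure Tg (X q s₁ : ℝ) (u y r R cu : ℝ) (t₁ w₁ : ℂ) : Prop where
  wr : |w₁.re - u| ≤ X * r
  wl : q * r ≤ w₁.im
  wu : w₁.im ≤ X * r
  tr : |t₁.re - y| ≤ X * r
  tl : R - X * r ≤ t₁.im
  tu : t₁.im ≤ R + cu * (w₁.re - u) + s₁ * w₁.im

section
variable {Mk : Set (ℂ × ℂ)} {b m : ℝ} {Ψ : ℂ → ℂ} {A : Set ℝ} {P : ℝ → ℂ} {c k : ℝ → ℝ}
variable {S X q s₁ γ u y r ρ ρc K M C₀ : ℝ} {f : ℂ → ℂ} {β : ℝ} {t₁ w₁ : ℂ}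

/-- bound of the slope -/
noncomputable def Bd (S X q s₁ : ℝ) : ℝ := (4 + 2 * S) * X / q + |s₁| + S + 3

theorem bd_aux {S X q s₁ κ μ γ : ℝ} (hκ : |κ| ≤ S) (hγ : γ ≤ 1 / 8)
    (hBp : 0 ≤ (4 + 2 * S) * X / q) (lo : -((4 + 2 * S) * X / q) ≤ μ)
    (hi : μ ≤ s₁ - κ + 3 * γ) : |μ| ≤ Bd S X q s₁ := by
  have hk' := abs_le.1 hκ
  have hs' := neg_abs_le s₁
  have hs'' := le_abs_self s₁
  have hs := abs_nonneg s₁
  unfold Bd
  rw [abs_le]
  constructor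
  · linarith
  · linarith

theorem Tg.norm (h : Tg X q s₁ u y r (P u).im (c u) t₁ w₁) (hr : 0 < r) (hq : 0 < q) :
    ‖w₁ - u‖ ≤ 2 * X * r := by
  have h0 : 0 < w₁.im := lt_of_lt_of_le (by positivity) h.wl
  have := norm_le_two (w := w₁) (u := u) (r := X * r) h.wr (by rw [abs_of_pos h0]; exact h.wu)
  linarith

theorem slope_bounds (hcm : Cmp Mk b m Ψ u ρc (P u) (c u) (k u) (q / (4 * X)) (γ * q / (8 * X)))
    (hf : D1 A u r ρ K M C₀ (X + 1 / q) (γ * q) f β)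
    (h : Tg X q s₁ u y r (P u).im (c u) t₁ w₁) (hS : |c u| ≤ S ∧ |k u| ≤ S)
    (hr : 0 < r) (hq : 0 < q) (hq1 : q ≤ 1) (hX : 1 ≤ X) (hγ : 0 < γ) (hγ1 : γ ≤ 1 / 8)
    (hrc : X * r < ρc) (hr1 : X ^ 2 * r ≤ γ * q) :
    |mmE Ψ f u t₁ w₁| ≤ Bd S X q s₁ ∧ mmE Ψ f u t₁ w₁ ≤ s₁ - k u + 3 * γ := by
  have hY0 : 0 < w₁.im := lt_of_lt_of_le (by positivity) h.wl
  have hXr : 0 < X * r := by positivity
  have hn := h.norm hr hq
  have hnt := hcm.nt w₁ (lt_of_le_of_lt h.wr hrc) hY0 (lt_of_le_of_lt h.wu hrc) (by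
    calc q / (4 * X) * |w₁.re - u| ≤ q / (4 * X) * (X * r) :=
          mul_le_mul_of_nonneg_left h.wr (by positivity)
      _ = q * r / 4 := by field_simp
      _ ≤ q * r := by nlinarith [mul_pos hq hr]
      _ ≤ w₁.im := h.wl)
  have hnt2 : ‖Ψ w₁ - P u - (I * c u + k u) * (w₁ - u)‖ ≤ γ * q * r / 4 := by
    refine hnt.trans ?_
    calc γ * q / (8 * X) * ‖w₁ - u‖ ≤ γ * q / (8 * X) * (2 * X * r) :=
          mul_le_mul_of_nonneg_left hn (by positivity)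
      _ = γ * q * r / 4 := by field_simp; ring
  have him : |(Ψ w₁).im - (P u).im - (c u * (w₁.re - u) + k u * w₁.im)| ≤ γ * q * r / 4 := by
    have := (Complex.abs_im_le_norm _).trans hnt2
    have e : (Ψ w₁ - P u - (I * c u + k u) * (w₁ - u)).im =
        (Ψ w₁).im - (P u).im - (c u * (w₁.re - u) + k u * w₁.im) := by
      simp only [sub_im, add_im, mul_im, mul_re, add_re, I_re, I_im, ofReal_re, ofReal_im, sub_re]
      ring
    rwa [e] at this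
  have him' := abs_le.1 him
  -- the auxiliary function at the target
  have hfre : |(f w₁).re| ≤ γ * q * r := by
    have ht := hf.tg w₁ (h.wr.trans (by
      have : 0 < 1 / q := by positivity
      nlinarith)) (by
        have e1 : r / (X + 1 / q) ≤ q * r := by
          rw [div_le_iff₀ (by positivity)]
          have : q * r * (X + 1 / q) = q * r * X + r := by field_simp
          rw [this]
          have : 0 ≤ q * r * X := by positivity
          linarith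
        exact e1.trans h.wl) (h.wu.trans (by
      have : 0 < 1 / q := by positivity
      nlinarith))
    have := (Complex.abs_re_le_norm _).trans ht
    simpa using this
  have hfre' := abs_le.1 hfre
  have hEim : (EE Ψ f u t₁ w₁).im = t₁.im - (Ψ w₁).im + (f w₁).re +
      ((w₁.re - u) ^ 2 - w₁.im ^ 2) := by
    unfold EE
    simp only [sub_im, add_im, mul_im, mul_re, I_re, I_im, ofReal_re, ofReal_im, sub_re, pow_two]
    ring
  have hsq1 : (w₁.re - u) ^ 2 ≤ X ^ 2 * r * r := by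
    have := abs_le.1 h.wr
    nlinarith
  have hsq2 : w₁.im ^ 2 ≤ X ^ 2 * r * r := by
    have := h.wu
    nlinarith
  have hsq3 : X ^ 2 * r * r ≤ γ * q * r := mul_le_mul_of_nonneg_right hr1 hr.le
  have hqrY : q * r ≤ w₁.im := h.wl
  have hγY : γ * q * r ≤ γ * w₁.im := by
    have := mul_le_mul_of_nonneg_left hqrY hγ.le
    linarith
  have hup : (EE Ψ f u t₁ w₁).im ≤ (s₁ - k u + 3 * γ) * w₁.im := by
    rw [hEim]
    have h1 := h.tu
    have h2 := sq_nonneg w₁.im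
    have e : (s₁ - k u + 3 * γ) * w₁.im = s₁ * w₁.im - k u * w₁.im + 3 * (γ * w₁.im) := by ring
    rw [e]
    linarith
  have hup2 : mmE Ψ f u t₁ w₁ ≤ s₁ - k u + 3 * γ := by
    unfold mmE
    rw [div_le_iff₀ hY0]
    exact hup
  have hS0 : 0 ≤ S := (abs_nonneg _).trans hS.1
  have hcw : |c u * (w₁.re - u)| ≤ S * (X * r) := by
    rw [abs_mul]
    exact mul_le_mul hS.1 h.wr (abs_nonneg _) hS0
  have hkw : |k u * w₁.im| ≤ S * (X * r) := by
    rw [abs_mul, abs_of_pos hY0]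
    exact mul_le_mul hS.2 h.wu hY0.le hS0
  have hcw' := abs_le.1 hcw
  have hkw' := abs_le.1 hkw
  have hγq : γ * q ≤ 1 / 8 := by nlinarith
  have hγqr : γ * q * r ≤ X * r / 8 := by
    have : γ * q * r ≤ 1 / 8 * r := mul_le_mul_of_nonneg_right hγq hr.le
    nlinarith
  have hlo : -((4 + 2 * S) * (X * r)) ≤ (EE Ψ f u t₁ w₁).im := by
    rw [hEim]
    have h1 := h.tl
    have h2 := sq_nonneg (w₁.re - u)
    have e : (4 + 2 * S) * (X * r) = 4 * (X * r) + 2 * (S * (X * r)) := by ring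
    rw [e]
    linarith
  have hlo2 : -((4 + 2 * S) * X / q) ≤ mmE Ψ f u t₁ w₁ := by
    unfold mmE
    rw [le_div_iff₀ hY0]
    have e1 : (4 + 2 * S) * X / q * w₁.im ≥ (4 + 2 * S) * X / q * (q * r) :=
      mul_le_mul_of_nonneg_left hqrY (by positivity)
    have e2 : (4 + 2 * S) * X / q * (q * r) = (4 + 2 * S) * (X * r) := by field_simp
    have e3 : -((4 + 2 * S) * X / q) * w₁.im = -((4 + 2 * S) * X / q * w₁.im) := by ring
    rw [e3]
    linarith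
  exact ⟨bd_aux hS.2 hγ1 (by positivity) hlo2 hup2, hup2⟩
end

end Vale.Agent.P097.H400
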