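import Vale.Agent.P097.H400.GeoA
import Vale.Agent.P097.H929.Thin2

/-! # P097 / row A5.W-GEO, part 2a: comparison of expansions at two labels -/

set_option linter.all false

open Complex Metric Filter Topology Set

namespace Vale.Agent.P097.H400

open Vale.Agent.P097.H85 Vale.Agent.P097.H929

theorem norm_slope {c k S : ℝ} (hc : |c| ≤ S) (hk : |k| ≤ S) : ‖(I * c + k : ℂ)‖ ≤ 2 * S := by
  refine (norm_add_le _ _).trans ?_
  rw [norm_mul, norm_I, one_mul, Complex.norm_real, Complex.norm_real, Real.norm_eq_abs,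
    Real.norm_eq_abs]
  linarith

/-- comparison of the expansions at two labels -/
theorem cmp_two {Mk : Set (ℂ × ℂ)} {b m : ℝ} {Ψ : ℂ → ℂ} {P : ℝ → ℂ} {c k : ℝ → ℝ}
    {u a ρ c₀ ε S : ℝ} (hu : Cmp Mk b m Ψ u ρ (P u) (c u) (k u) c₀ ε)
    (ha : Cmp Mk b m Ψ a ρ (P a) (c a) (k a) c₀ ε) (hc : c₀ ≤ 1) (hε : 0 ≤ ε) (hε1 : ε ≤ 1)
    (hS : |c u| ≤ S ∧ |k u| ≤ S) (hS' : |c a| ≤ S ∧ |k a| ≤ S) (h : 5 * |a - u| < ρ) :
    |c a - c u| ≤ 7 * ε ∧ |k a - k u| ≤ 7 * ε ∧ ‖P a - P u‖ ≤ (10 * S + 5) * |a - u| := by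
  rcases eq_or_ne a u with rfl | hne
  · simp only [sub_self, abs_zero, norm_zero, mul_zero, le_refl, and_true]
    constructor <;> positivity
  set η : ℝ := |a - u| with hη
  have hη0 : 0 < η := abs_pos.2 (sub_ne_zero.2 hne)
  set w₁ : ℂ := (u : ℂ) + ((4 * η : ℝ) : ℂ) * I with hw₁
  set w₂ : ℂ := (u : ℂ) + ((2 * η : ℝ) : ℂ) * I with hw₂
  have r1 : w₁.re = u := by simp [hw₁]
  have i1 : w₁.im = 4 * η := by simp [hw₁]
  have r2 : w₂.re = u := by simp [hw₂]
  have i2 : w₂.im = 2 * η := by simp [hw₂]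
  have d1 : ‖w₁ - u‖ = 4 * η := by
    rw [hw₁, add_sub_cancel_left, norm_mul, norm_I, mul_one, Complex.norm_real,
      Real.norm_of_nonneg (by positivity)]
  have d2 : ‖w₂ - u‖ = 2 * η := by
    rw [hw₂, add_sub_cancel_left, norm_mul, norm_I, mul_one, Complex.norm_real,
      Real.norm_of_nonneg (by positivity)]
  have dua : ‖(u : ℂ) - a‖ = η := by
    rw [← ofReal_sub, Complex.norm_real, Real.norm_eq_abs, hη, abs_sub_comm]
  have d3 : ‖w₁ - a‖ ≤ 5 * η := by
    have : w₁ - a = (w₁ - u) + (u - a) := by ring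
    rw [this]
    refine (norm_add_le _ _).trans ?_
    rw [d1, dua]; linarith
  have d4 : ‖w₂ - a‖ ≤ 3 * η := by
    have : w₂ - a = (w₂ - u) + (u - a) := by ring
    rw [this]
    refine (norm_add_le _ _).trans ?_
    rw [d2, dua]; linarith
  have eua : |u - a| = η := by rw [hη, abs_sub_comm]
  have ccη : c₀ * η ≤ η := by nlinarith
  have N1 := hu.nt w₁ (by rw [r1, sub_self, abs_zero]; linarith) (by rw [i1]; linarith)
    (by rw [i1]; linarith) (by rw [r1, sub_self, abs_zero, i1]; linarith)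
  have N2 := hu.nt w₂ (by rw [r2, sub_self, abs_zero]; linarith) (by rw [i2]; linarith)
    (by rw [i2]; linarith) (by rw [r2, sub_self, abs_zero, i2]; linarith)
  have N3 := ha.nt w₁ (by rw [r1, eua]; linarith) (by rw [i1]; linarith)
    (by rw [i1]; linarith) (by rw [r1, eua, i1]; linarith)
  have N4 := ha.nt w₂ (by rw [r2, eua]; linarith) (by rw [i2]; linarith)
    (by rw [i2]; linarith) (by rw [r2, eua, i2]; linarith)
  rw [d1] at N1
  rw [d2] at N2
  have N3' := N3.trans (mul_le_mul_of_nonneg_left d3 hε)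
  have N4' := N4.trans (mul_le_mul_of_nonneg_left d4 hε)
  have hw12 : w₁ - w₂ = ((2 * η : ℝ) : ℂ) * I := by
    rw [hw₁, hw₂]; push_cast; ring
  have key : ‖((I * c u + k u) - (I * c a + k a)) * (w₁ - w₂)‖ ≤ 14 * ε * η := by
    have e : ((I * c u + k u) - (I * c a + k a)) * (w₁ - w₂) =
        (Ψ w₂ - P u - (I * c u + k u) * (w₂ - u)) - (Ψ w₁ - P u - (I * c u + k u) * (w₁ - u)) +
        ((Ψ w₁ - P a - (I * c a + k a) * (w₁ - a)) - (Ψ w₂ - P a - (I * c a + k a) * (w₂ - a))) := by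
      ring
    rw [e]
    refine (norm_add_le _ _).trans ?_
    have a1 := norm_sub_le (Ψ w₂ - P u - (I * c u + k u) * (w₂ - u))
      (Ψ w₁ - P u - (I * c u + k u) * (w₁ - u))
    have a2 := norm_sub_le (Ψ w₁ - P a - (I * c a + k a) * (w₁ - a))
      (Ψ w₂ - P a - (I * c a + k a) * (w₂ - a))
    nlinarith
  rw [hw12, norm_mul, norm_mul, norm_I, mul_one, Complex.norm_real,
    Real.norm_of_nonneg (by positivity : (0 : ℝ) ≤ 2 * η)] at key
  have key2 : ‖((I * c u + k u : ℂ) - (I * c a + k a))‖ ≤ 7 * ε := by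
    have : ‖((I * c u + k u : ℂ) - (I * c a + k a))‖ * (2 * η) ≤ (7 * ε) * (2 * η) := by nlinarith
    exact le_of_mul_le_mul_right this (by positivity)
  have hre : ((I * c u + k u : ℂ) - (I * c a + k a)).re = k u - k a := by simp
  have him : ((I * c u + k u : ℂ) - (I * c a + k a)).im = c u - c a := by simp
  have kr := (Complex.abs_re_le_norm _).trans key2
  have ki := (Complex.abs_im_le_norm _).trans key2
  rw [hre, abs_sub_comm] at kr
  rw [him, abs_sub_comm] at ki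
  refine ⟨ki, kr, ?_⟩
  have e2 : P a - P u = (Ψ w₂ - P u - (I * c u + k u) * (w₂ - u)) -
      (Ψ w₂ - P a - (I * c a + k a) * (w₂ - a)) + (I * c u + k u) * (w₂ - u) -
      (I * c a + k a) * (w₂ - a) := by ring
  rw [e2]
  have s1 := norm_slope hS.1 hS.2
  have s2 := norm_slope hS'.1 hS'.2
  have b1 : ‖(I * c u + k u : ℂ) * (w₂ - u)‖ ≤ 2 * S * (2 * η) := by
    rw [norm_mul, d2]
    exact mul_le_mul_of_nonneg_right s1 (by positivity)
  have hS0 : 0 ≤ 2 * S := (norm_nonneg _).trans s1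
  have b2 : ‖(I * c a + k a : ℂ) * (w₂ - a)‖ ≤ 2 * S * (3 * η) := by
    rw [norm_mul]
    exact mul_le_mul s2 d4 (norm_nonneg _) hS0
  have b3 := norm_sub_le ((Ψ w₂ - P u - (I * c u + k u) * (w₂ - u)) -
      (Ψ w₂ - P a - (I * c a + k a) * (w₂ - a)) + (I * c u + k u) * (w₂ - u))
      ((I * c a + k a) * (w₂ - a))
  have b4 := norm_add_le ((Ψ w₂ - P u - (I * c u + k u) * (w₂ - u)) -
      (Ψ w₂ - P a - (I * c a + k a) * (w₂ - a))) ((I * c u + k u) * (w₂ - u))
  have b5 := norm_sub_le (Ψ w₂ - P u - (I * c u + k u) * (w₂ - u))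
      (Ψ w₂ - P a - (I * c a + k a) * (w₂ - a))
  nlinarith

end Vale.Agent.P097.H400
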