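import Vale.Agent.P097.H400.GeoB

/-! # P097 / row A5.W-GEO, part 2b: lateral bound of the disc -/

set_option linter.all false

open Complex Metric Filter Topology Set

namespace Vale.Agent.P097.H400

open Vale.Agent.P097.H85 Vale.Agent.P097.H929

section
variable {Mk : Set (ℂ × ℂ)} {b m : ℝ} {Ψ : ℂ → ℂ} {A : Set ℝ} {P : ℝ → ℂ} {c k : ℝ → ℝ}
variable {S X q s₁ γ u y r ρ ρc K M C₀ : ℝ} {f : ℂ → ℂ} {β : ℝ} {t₁ w₁ : ℂ}

/-- the constant of the lateral bound -/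
noncomputable def Cl (S X q s₁ C₀ : ℝ) : ℝ :=
  (X + 2 * X * (2 * S + 1) + 1 + 2 * X + Bd S X q s₁ * X) + Bd S X q s₁ + C₀ + 1

theorem Bd_pos {S X q s₁ : ℝ} (hS : 0 ≤ S) (hX : 1 ≤ X) (hq : 0 < q) : 3 ≤ Bd S X q s₁ := by
  unfold Bd
  have h1 : 0 ≤ (4 + 2 * S) * X / q := by positivity
  have h2 := abs_nonneg s₁
  linarith

theorem TT_lateral (hcm : Cmp Mk b m Ψ u ρc (P u) (c u) (k u) (q / (4 * X)) (γ * q / (8 * X)))
    (hf : D1 A u r ρ K M C₀ (X + 1 / q) (γ * q) f β)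
    (h : Tg X q s₁ u y r (P u).im (c u) t₁ w₁) (hS : |c u| ≤ S ∧ |k u| ≤ S)
    (hr : 0 < r) (hq : 0 < q) (hq1 : q ≤ 1) (hX : 1 ≤ X) (hγ : 0 < γ) (hγ1 : γ ≤ 1 / 8)
    (hrc : X * r < ρc) (hr1 : X ^ 2 * r ≤ γ * q) (hC₀ : 0 ≤ C₀) {w : ℂ} (hw : 0 ≤ w.im)
    (hwρ : ‖w - u‖ ≤ ρ) (hw1 : ‖w - u‖ ≤ 1) :
    ‖TT Ψ f u (ccE Ψ f u t₁ w₁) (mmE Ψ f u t₁ w₁) w - Ψ w - ((y - (P u).re : ℝ) : ℂ)‖ ≤
      Cl S X q s₁ C₀ * (r + ‖w - u‖) := by
  obtain ⟨hB, -⟩ := slope_bounds hcm hf h hS hr hq hq1 hX hγ hγ1 hrc hr1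
  have hS0 : 0 ≤ S := (abs_nonneg _).trans hS.1
  have hB0 := Bd_pos (s₁ := s₁) hS0 hX hq
  set B := Bd S X q s₁ with hBdef
  set mm := mmE Ψ f u t₁ w₁ with hmm
  have hY0 : 0 < w₁.im := lt_of_lt_of_le (by positivity) h.wl
  have hXr : 0 < X * r := by positivity
  have hn := h.norm hr hq
  have hnt := hcm.nt w₁ (lt_of_le_of_lt h.wr hrc) hY0 (lt_of_le_of_lt h.wu hrc) (by
    calc q / (4 * X) * |w₁.re - u| ≤ q / (4 * X) * (X * r) :=
          mul_le_mul_of_nonneg_left h.wr (by positivity)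
      _ = q * r / 4 := by field_simp
      _ ≤ q * r := by nlinarith [mul_pos hq hr]
      _ ≤ w₁.im := h.wl)
  have hΨ : ‖Ψ w₁ - P u‖ ≤ 2 * X * (2 * S + 1) * r := by
    have e1 : Ψ w₁ - P u = (Ψ w₁ - P u - (I * c u + k u) * (w₁ - u)) +
        (I * c u + k u) * (w₁ - u) := by ring
    rw [e1]
    refine (norm_add_le _ _).trans ?_
    have e2 : ‖(I * c u + k u : ℂ) * (w₁ - u)‖ ≤ 2 * S * (2 * X * r) := by
      rw [norm_mul]
      exact mul_le_mul (norm_slope hS.1 hS.2) hn (norm_nonneg _) (by positivity)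
    have e3 : γ * q / (8 * X) * ‖w₁ - u‖ ≤ 1 * (2 * X * r) := by
      apply mul_le_mul _ hn (norm_nonneg _) (by norm_num)
      rw [div_le_iff₀ (by positivity)]
      nlinarith
    linarith
  have hft : ‖f w₁ - I * β‖ ≤ γ * q * r := by
    apply hf.tg w₁ (h.wr.trans (by
      have : 0 < 1 / q := by positivity
      nlinarith)) (by
        have e1 : r / (X + 1 / q) ≤ q * r := by
          rw [div_le_iff₀ (by positivity)]
          have : q * r * (X + 1 / q) = q * r * X + r := by field_simp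
          rw [this]
          have : 0 ≤ q * r * X := by positivity
          linarith
        exact e1.trans h.wl) (h.wu.trans (by
      have : 0 < 1 / q := by positivity
      nlinarith))
  have hγqr : γ * q * r ≤ r := by
    have e1 : γ * q ≤ 1 := by nlinarith
    have e2 : γ * q * r ≤ 1 * r := mul_le_mul_of_nonneg_right e1 hr.le
    linarith
  -- the constant term
  have hsq : ‖(w₁ - u) ^ 2‖ ≤ 2 * X * r := by
    rw [norm_pow]
    have h2 : 2 * X * r ≤ 1 := by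
      have : X * r ≤ X ^ 2 * r := by nlinarith
      nlinarith
    nlinarith [norm_nonneg (w₁ - (u : ℂ))]
  have hcc : |ccE Ψ f u t₁ w₁ - (y - (P u).re - β)| ≤
      (X + 2 * X * (2 * S + 1) + 1 + 2 * X + B * X) * r := by
    have e1 : ccE Ψ f u t₁ w₁ - (y - (P u).re - β) = (t₁.re - y) - (Ψ w₁ - P u).re +
        (I * (f w₁ - I * β)).re + (I * (w₁ - u) ^ 2).re - mm * (w₁.re - u) := by
      unfold ccE EE
      rw [← hmm]
      simp only [add_re, sub_re, mul_re, I_re, I_im, ofReal_re, ofReal_im, sub_im, mul_im]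
      ring
    rw [e1]
    have a1 := h.tr
    have a2 := (Complex.abs_re_le_norm (Ψ w₁ - P u)).trans hΨ
    have a3 : |(I * (f w₁ - I * β)).re| ≤ γ * q * r := by
      refine (Complex.abs_re_le_norm _).trans ?_
      rw [norm_mul, norm_I, one_mul]; exact hft
    have a4 : |(I * (w₁ - u) ^ 2).re| ≤ 2 * X * r := by
      refine (Complex.abs_re_le_norm _).trans ?_
      rw [norm_mul, norm_I, one_mul]; exact hsq
    have a5 : |mm * (w₁.re - u)| ≤ B * (X * r) := by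
      rw [abs_mul]
      exact mul_le_mul hB h.wr (abs_nonneg _) (by linarith)
    have b1 := abs_le.1 a1
    have b2 := abs_le.1 a2
    have b3 := abs_le.1 a3
    have b4 := abs_le.1 a4
    have b5 := abs_le.1 a5
    have ee : (X + 2 * X * (2 * S + 1) + 1 + 2 * X + B * X) * r = X * r +
        2 * X * (2 * S + 1) * r + r + 2 * X * r + B * (X * r) := by ring
    rw [ee, abs_le]
    constructor <;> linarith
  have e2 : TT Ψ f u (ccE Ψ f u t₁ w₁) mm w - Ψ w - ((y - (P u).re : ℝ) : ℂ) =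
      ((ccE Ψ f u t₁ w₁ - (y - (P u).re - β) : ℝ) : ℂ) + mm * (w - u) - I * (f w - I * β) -
        I * (w - u) ^ 2 := by
    unfold TT
    push_cast
    linear_combination (-(β : ℂ)) * I_sq
  rw [e2]
  have n1 : ‖((ccE Ψ f u t₁ w₁ - (y - (P u).re - β) : ℝ) : ℂ)‖ ≤
      (X + 2 * X * (2 * S + 1) + 1 + 2 * X + B * X) * r := by
    rw [Complex.norm_real, Real.norm_eq_abs]; exact hcc
  have n2 : ‖(mm : ℂ) * (w - u)‖ ≤ B * ‖w - u‖ := by
    rw [norm_mul, Complex.norm_real, Real.norm_eq_abs]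
    exact mul_le_mul_of_nonneg_right hB (norm_nonneg _)
  have n3 : ‖I * (f w - I * β)‖ ≤ C₀ * (r + ‖w - u‖) := by
    rw [norm_mul, norm_I, one_mul]
    exact hf.lat w hw hwρ
  have n4 : ‖I * (w - u) ^ 2‖ ≤ ‖w - u‖ := by
    rw [norm_mul, norm_I, one_mul, norm_pow]
    nlinarith [norm_nonneg (w - (u : ℂ))]
  have m1 := norm_sub_le (((ccE Ψ f u t₁ w₁ - (y - (P u).re - β) : ℝ) : ℂ) + mm * (w - u) -
    I * (f w - I * β)) (I * (w - u) ^ 2)
  have m2 := norm_sub_le (((ccE Ψ f u t₁ w₁ - (y - (P u).re - β) : ℝ) : ℂ) + mm * (w - u))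
    (I * (f w - I * β))
  have m3 := norm_add_le (((ccE Ψ f u t₁ w₁ - (y - (P u).re - β) : ℝ) : ℂ)) (mm * (w - u))
  have hnn := norm_nonneg (w - (u : ℂ))
  have hpp : 0 ≤ X + 2 * X * (2 * S + 1) + 1 + 2 * X + B * X := by positivity
  unfold Cl
  rw [← hBdef]
  set Ca := X + 2 * X * (2 * S + 1) + 1 + 2 * X + B * X
  have q1 := mul_nonneg hpp hnn
  have q2 := mul_nonneg (by linarith : (0 : ℝ) ≤ B) hr.le
  have e : (Ca + B + C₀ + 1) * (r + ‖w - (u : ℂ)‖) = Ca * r + Ca * ‖w - (u : ℂ)‖ + B * r +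
      B * ‖w - (u : ℂ)‖ + C₀ * (r + ‖w - (u : ℂ)‖) + r + ‖w - (u : ℂ)‖ := by ring
  rw [e]
  linarith
end

end Vale.Agent.P097.H400
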