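import Vale.Agent.P097.H400.GeoB2

/-! # P097 / row A5.W-GEO, part 3: the disc as a structure, its maximum principle; position of the
points of the disc -/

set_option linter.all false

open Complex Metric Filter Topology Set

namespace Vale.Agent.P097.H400

open Vale.Agent.P097.H85 Vale.Agent.P097.H929

/-- relative height of the lateral boundary of the disc -/
noncomputable def hh (c₁ r M x : ℝ) : ℝ := c₁ * (pr r M x + x ^ 2)

theorem hh_pos {c₁ r M x : ℝ} (hc : 0 < c₁) (hr : 0 < r) (hM : 1 ≤ M) : 0 < hh c₁ r M x := by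
  have := pr_pos (x := x) hr hM
  unfold hh
  positivity

theorem hh_cont {c₁ r M : ℝ} (hr : 0 < r) (hM : 1 ≤ M) : Continuous (hh c₁ r M) := by
  have h1 : ∀ x : ℝ, 1 + |x| / r ≠ 0 := fun x => by positivity
  have h2 : Continuous (fun x : ℝ => M + Real.log (1 + |x| / r)) :=
    continuous_const.add (Continuous.log (by fun_prop) h1)
  have h3 : ∀ x : ℝ, (M + Real.log (1 + |x| / r)) ^ 2 ≠ 0 := fun x => by
    have := log_nn (x := x) hr
    positivity
  have h4 : Continuous (pr r M) := by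
    unfold pr
    exact (continuous_const.add continuous_abs).div (h2.pow 2) h3
  unfold hh
  fun_prop

/-- the disc through a target -/
structure Disc (Mk : Set (ℂ × ℂ)) (b m : ℝ) (Ψ : ℂ → ℂ) (P : ℝ → ℂ) (M ρ₁ c₁ C' : ℝ)
    (Kc : Set (ℂ × ℂ)) (u r y : ℝ) (t₁ w₁ : ℂ) (T : ℂ → ℂ) : Prop where
  hol : DifferentiableOn ℂ T {w | ‖w - u‖ < 2 * ρ₁ ∧ 0 < w.im}
  target : T w₁ = t₁
  inside : ‖w₁ - u‖ < ρ₁ ∧ 2 * hh c₁ r M (w₁.re - u) < w₁.im
  mem : ∀ w : ℂ, 0 < w.im → ‖w - u‖ ≤ ρ₁ → (T w, w) ∈ Mk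
  low : ∀ w : ℂ, 0 < w.im → ‖w - u‖ ≤ ρ₁ → (b + m) / 2 ≤ (T w).im
  strip : ∀ w : ℂ, 0 < w.im → ‖w - u‖ ≤ ρ₁ → w.im ≤ 2 * hh c₁ r M (w.re - u) →
    (T w).im ≤ (Ψ w).im - hh c₁ r M (w.re - u)
  lat : ∀ w : ℂ, 0 < w.im → ‖w - u‖ ≤ ρ₁ →
    ‖T w - Ψ w - ((y - (P u).re : ℝ) : ℂ)‖ ≤ C' * (r + ‖w - u‖)
  arc : ∀ w : ℂ, 0 < w.im → ‖w - u‖ = ρ₁ → hh c₁ r M (w.re - u) ≤ w.im → (T w, w) ∈ Kc

/-- the maximum principle on the disc, majorant `exp (Re h)` -/
theorem Disc.major {Mk : Set (ℂ × ℂ)} {b m : ℝ} {Ψ : ℂ → ℂ} {P : ℝ → ℂ} {M ρ₁ c₁ C' : ℝ}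
    {Kc : Set (ℂ × ℂ)} {u r y : ℝ} {t₁ w₁ : ℂ} {T : ℂ → ℂ}
    (H : Disc Mk b m Ψ P M ρ₁ c₁ C' Kc u r y t₁ w₁ T) (hc₁ : 0 < c₁) (hρ₁ : 0 < ρ₁) (hr : 0 < r)
    (hM : 1 ≤ M) (hMk : IsOpen Mk) {E : Type*} [NormedAddCommGroup E] [NormedSpace ℂ E]
    {F : ℂ × ℂ → E} (hF : DifferentiableOn ℂ F Mk) {h : ℂ → ℂ}
    (hh' : DifferentiableOn ℂ h {w | 0 < w.im})
    (hstrip : ∀ w : ℂ, ‖w - u‖ ≤ ρ₁ → hh c₁ r M (w.re - u) ≤ w.im →
      w.im ≤ 2 * hh c₁ r M (w.re - u) → ‖F (T w, w)‖ ≤ Real.exp (h w).re)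
    (harc : ∀ w : ℂ, ‖w - u‖ = ρ₁ → hh c₁ r M (w.re - u) ≤ w.im →
      ‖F (T w, w)‖ ≤ Real.exp (h w).re) :
    ‖F (t₁, w₁)‖ ≤ Real.exp (h w₁).re := by
  have hcont := hh_cont (c₁ := c₁) hr hM
  have hcw : Continuous (fun w : ℂ => hh c₁ r M (w.re - u)) :=
    hcont.comp (continuous_re.sub continuous_const)
  have hpos : ∀ w : ℂ, 0 < hh c₁ r M (w.re - u) := fun w => hh_pos hc₁ hr hM
  set U : Set ℂ := {w | ‖w - u‖ < ρ₁ ∧ 3 / 2 * hh c₁ r M (w.re - u) < w.im} with hUdef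
  have hcn : Continuous (fun w : ℂ => ‖w - u‖) := (continuous_id.sub continuous_const).norm
  have hcw2 : Continuous (fun w : ℂ => 3 / 2 * hh c₁ r M (w.re - u)) := continuous_const.mul hcw
  have hUo : IsOpen U := (isOpen_lt hcn continuous_const).inter (isOpen_lt hcw2 continuous_im)
  have hcl : closure U ⊆ {w : ℂ | ‖w - u‖ ≤ ρ₁ ∧ 3 / 2 * hh c₁ r M (w.re - u) ≤ w.im} := by
    apply closure_minimal
    · rintro w ⟨h1, h2⟩
      exact ⟨h1.le, h2.le⟩
    · exact (isClosed_le hcn continuous_const).inter (isClosed_le hcw2 continuous_im)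
  have hfr : ∀ w ∈ frontier U, ‖w - u‖ ≤ ρ₁ ∧ 3 / 2 * hh c₁ r M (w.re - u) ≤ w.im ∧
      (‖w - u‖ = ρ₁ ∨ w.im = 3 / 2 * hh c₁ r M (w.re - u)) := by
    intro w hw
    have h1 := hcl (frontier_subset_closure hw)
    refine ⟨h1.1, h1.2, ?_⟩
    by_contra hne
    push Not at hne
    have : w ∈ U := ⟨lt_of_le_of_ne h1.1 hne.1, lt_of_le_of_ne h1.2 (Ne.symm hne.2)⟩
    rw [hUo.frontier_eq] at hw
    exact hw.2 this
  have hbd : Bornology.IsBounded U := by
    refine (isBounded_ball (x := (u : ℂ)) (r := ρ₁)).subset ?_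
    rintro w ⟨h1, -⟩
    rw [mem_ball, dist_eq_norm]
    exact h1
  set G : ℂ → E := fun w => Complex.exp (-h w) • F (T w, w) with hG
  have hcu : ∀ w ∈ closure U, 0 < w.im ∧ ‖w - u‖ < 2 * ρ₁ := by
    intro w hw
    have h1 := hcl hw
    have h2 := hpos w
    exact ⟨by have := h1.2; linarith, by have := h1.1; linarith⟩
  have hV : IsOpen {w : ℂ | ‖w - u‖ < 2 * ρ₁ ∧ 0 < w.im} :=
    (isOpen_lt hcn continuous_const).inter (isOpen_lt continuous_const continuous_im)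
  have hGd : ∀ w ∈ closure U, DifferentiableAt ℂ G w := by
    intro w hw
    obtain ⟨h1, h2⟩ := hcu w hw
    have d1 : DifferentiableAt ℂ T w := (H.hol w ⟨h2, h1⟩).differentiableAt (hV.mem_nhds ⟨h2, h1⟩)
    have d2 : DifferentiableAt ℂ h w := (hh' w h1).differentiableAt
      ((isOpen_lt continuous_const continuous_im).mem_nhds h1)
    have hm := H.mem w h1 (hcl hw).1
    have d3 : DifferentiableAt ℂ F (T w, w) := (hF _ hm).differentiableAt (hMk.mem_nhds hm)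
    have d4 : DifferentiableAt ℂ (fun w : ℂ => (T w, w)) w := d1.prodMk differentiableAt_id
    have d5 : DifferentiableAt ℂ (fun w : ℂ => F (T w, w)) w :=
      DifferentiableAt.comp w (f := fun w : ℂ => (T w, w)) (g := F) d3 d4
    exact (d2.neg.cexp).smul d5
  have hdc : DiffContOnCl ℂ G U := by
    refine ⟨fun w hw => (hGd w (subset_closure hw)).differentiableWithinAt, fun w hw => ?_⟩
    exact (hGd w hw).continuousAt.continuousWithinAt
  have hle : ∀ w ∈ frontier U, ‖G w‖ ≤ 1 := by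
    intro w hw
    obtain ⟨h1, h2, h3⟩ := hfr w hw
    have h4 := hpos w
    have key : ‖F (T w, w)‖ ≤ Real.exp (h w).re := by
      rcases h3 with h3 | h3
      · exact harc w h3 (by linarith)
      · exact hstrip w h1 (by linarith) (by linarith)
    rw [hG]
    simp only [norm_smul, Complex.norm_exp, neg_re]
    rw [Real.exp_neg, inv_mul_le_iff₀ (Real.exp_pos _), mul_one]
    exact key
  have hw1 : w₁ ∈ U := ⟨H.inside.1, by have := H.inside.2; have := hpos w₁; linarith⟩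
  have := Complex.norm_le_of_forall_mem_frontier_norm_le hbd hdc hle (subset_closure hw1)
  rw [hG] at this
  simp only [norm_smul, Complex.norm_exp, neg_re] at this
  rw [Real.exp_neg, inv_mul_le_iff₀ (Real.exp_pos _), mul_one, H.target] at this
  exact this

section
variable {Mk : Set (ℂ × ℂ)} {b m : ℝ} {Ψ : ℂ → ℂ} {A : Set ℝ} {P : ℝ → ℂ} {c k : ℝ → ℝ}
variable {S X q s₁ γ u a y r ρ ρc ρ₁ K M C₀ mm : ℝ} {f : ℂ → ℂ} {β : ℝ} {w : ℂ}

/-- near a label `a` -/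
theorem near_a
    (hcu : Cmp Mk b m Ψ u ρc (P u) (c u) (k u) (q / (4 * X)) (γ * q / (8 * X)))
    (hca : Cmp Mk b m Ψ a ρc (P a) (c a) (k a) (q / (4 * X)) (γ * q / (8 * X)))
    (hSu : |c u| ≤ S ∧ |k u| ≤ S) (hSa : |c a| ≤ S ∧ |k a| ≤ S)
    (hq : 0 < q) (hq1 : q ≤ 1) (hX : 1 ≤ X) (hγ : 0 < γ) (hγ1 : γ ≤ 1 / 8)
    (hρc : 25 * ρ₁ < ρc) (hργ : ρ₁ ≤ γ) (hw0 : 0 < w.im) (hwρ : ‖w - u‖ ≤ ρ₁)
    (h4 : |w.re - a| ≤ 4 * w.im) :
    (mm ≤ s₁ - k u + 3 * γ → (Ψ w).im + mm * w.im + w.im ^ 2 ≤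
      (P a).im + c a * (w.re - a) + (s₁ + 6 * γ) * w.im) ∧
    ‖Ψ w - P u‖ ≤ (60 * S + 30) * ρ₁ ∧ |a - u| ≤ 5 * ρ₁ := by
  have hS0 : 0 ≤ S := (abs_nonneg _).trans hSu.1
  have hwi : w.im ≤ ρ₁ := by
    have := (Complex.abs_im_le_norm (w - u)).trans hwρ
    simp only [sub_im, ofReal_im, sub_zero] at this
    exact (le_abs_self _).trans this
  have hwr : |w.re - u| ≤ ρ₁ := by
    have := (Complex.abs_re_le_norm (w - u)).trans hwρ
    simpa using this
  have hρ0 : 0 < ρ₁ := lt_of_lt_of_le hw0 hwi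
  have hau : |a - u| ≤ 5 * ρ₁ := by
    have e1 := abs_sub_le a w.re u
    rw [abs_sub_comm a w.re] at e1
    linarith
  set ε₁ : ℝ := γ * q / (8 * X) with hε₁
  have hε0 : 0 < ε₁ := by positivity
  have hε1 : ε₁ ≤ γ / 8 := by
    rw [hε₁, div_le_div_iff₀ (by positivity) (by norm_num)]
    nlinarith [mul_le_mul_of_nonneg_left hq1 hγ.le, mul_le_mul_of_nonneg_left hX hγ.le]
  have hcone : q / (4 * X) ≤ 1 / 4 := by
    rw [div_le_div_iff₀ (by positivity) (by norm_num)]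
    linarith
  obtain ⟨t1, t2, t3⟩ := cmp_two hcu hca (by linarith) hε0.le (by linarith) hSu hSa
    (by linarith)
  have hnt := hca.nt w (by linarith) hw0 (by linarith) (by
    have := mul_le_mul_of_nonneg_left h4 (by positivity : 0 ≤ q / (4 * X))
    have := mul_le_mul_of_nonneg_right hcone (by positivity : 0 ≤ 4 * w.im)
    linarith)
  have hna : ‖w - a‖ ≤ 5 * w.im := by
    have h := Complex.norm_le_abs_re_add_abs_im (w - a)
    simp only [sub_re, ofReal_re, sub_im, ofReal_im, sub_zero, abs_of_pos hw0] at h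
    linarith
  have hnt2 : ‖Ψ w - P a - (I * c a + k a) * (w - a)‖ ≤ 5 * ε₁ * w.im := by
    refine hnt.trans ?_
    have := mul_le_mul_of_nonneg_left hna hε0.le
    linarith
  have him : (Ψ w).im - (P a).im - (c a * (w.re - a) + k a * w.im) ≤ 5 * ε₁ * w.im := by
    have := (le_abs_self _).trans ((Complex.abs_im_le_norm _).trans hnt2)
    have e : (Ψ w - P a - (I * c a + k a) * (w - a)).im =
        (Ψ w).im - (P a).im - (c a * (w.re - a) + k a * w.im) := by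
      simp only [sub_im, add_im, mul_im, mul_re, add_re, I_re, I_im, ofReal_re, ofReal_im, sub_re]
      ring
    rwa [e] at this
  refine ⟨fun hmm => ?_, ?_, hau⟩
  · have e1 : k a - k u ≤ 7 * ε₁ := (le_abs_self _).trans t2
    have e2 : w.im ^ 2 ≤ γ * w.im := by
      rw [pow_two]
      exact mul_le_mul_of_nonneg_right (hwi.trans hργ) hw0.le
    have e3 : (k a + 5 * ε₁ + mm + γ) * w.im ≤ (s₁ + 6 * γ) * w.im := by
      apply mul_le_mul_of_nonneg_right _ hw0.le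
      linarith
    nlinarith
  · have f1 : Ψ w - P u = (Ψ w - P a - (I * c a + k a) * (w - a)) + (I * c a + k a) * (w - a) +
        (P a - P u) := by ring
    rw [f1]
    have f2 : ‖(I * c a + k a : ℂ) * (w - a)‖ ≤ 2 * S * (5 * w.im) := by
      rw [norm_mul]
      exact mul_le_mul (norm_slope hSa.1 hSa.2) hna (norm_nonneg _) (by positivity)
    have f3 := norm_add_le ((Ψ w - P a - (I * c a + k a) * (w - a)) + (I * c a + k a) * (w - a))
      (P a - P u)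
    have f4 := norm_add_le (Ψ w - P a - (I * c a + k a) * (w - a)) ((I * c a + k a) * (w - a))
    have f5 : 5 * ε₁ * w.im ≤ 5 * ρ₁ := by
      have : ε₁ ≤ 1 := by linarith
      have : ε₁ * w.im ≤ 1 * ρ₁ := mul_le_mul this hwi hw0.le (by norm_num)
      linarith
    have f6 : 2 * S * (5 * w.im) ≤ 10 * S * ρ₁ := by
      have := mul_le_mul_of_nonneg_left hwi hS0
      linarith
    have f7 : (10 * S + 5) * |a - u| ≤ (10 * S + 5) * (5 * ρ₁) :=
      mul_le_mul_of_nonneg_left hau (by positivity)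
    have f8 : (60 * S + 30) * ρ₁ = (50 * S + 25) * ρ₁ + 10 * S * ρ₁ + 5 * ρ₁ := by ring
    have f9 : (10 * S + 5) * (5 * ρ₁) = (50 * S + 25) * ρ₁ := by ring
    rw [f8]
    rw [f9] at f7
    linarith

/-- far from the labels -/
theorem far_w {B cc : ℝ} (hf : D1 A u r ρ (2 * B + 3) M C₀ (X + 1 / q) (γ * q) f β)
    (hB : |mm| ≤ B) (hr : 0 < r) (hM : 1 ≤ M) (hu : u ∈ A) (hρ : 2 * ρ₁ ≤ ρ) (hρ1 : ρ₁ ≤ 1)
    (hw0 : 0 < w.im) (hwρ : ‖w - u‖ ≤ ρ₁) (h4 : 4 * w.im ≤ infDist w.re A) :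
    (TT Ψ f u cc mm w).im ≤ (Ψ w).im - w.im / 2 := by
  have hwi : w.im ≤ ρ₁ := by
    have := (Complex.abs_im_le_norm (w - u)).trans hwρ
    simp only [sub_im, ofReal_im, sub_zero] at this
    exact (le_abs_self _).trans this
  have hwr : |w.re - u| ≤ ρ₁ := by
    have := (Complex.abs_re_le_norm (w - u)).trans hwρ
    simpa using this
  have hB0 : 0 ≤ B := (abs_nonneg _).trans hB
  have h1 := hf.low1 hr hM (by linarith) hu (w := w) (by linarith) (by linarith) hw0.le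
    (by linarith) (by linarith)
  rw [TT_im]
  have h2 : mm * w.im ≤ B * w.im := mul_le_mul_of_nonneg_right ((le_abs_self _).trans hB) hw0.le
  have h3 : w.im ^ 2 ≤ 1 * w.im := by
    rw [pow_two]; exact mul_le_mul_of_nonneg_right (hwi.trans hρ1) hw0.le
  have h5 : (2 * B + 3) * (4 * w.im) / 8 ≤ (2 * B + 3) * infDist w.re A / 8 := by
    have := mul_le_mul_of_nonneg_left h4 (by linarith : (0 : ℝ) ≤ 2 * B + 3)
    linarith
  have h6 := sq_nonneg (w.re - u)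
  nlinarith

/-- the upper bound without labels -/
theorem upper_w {cc : ℝ} (hf : D1 A u r ρ K M C₀ (X + 1 / q) (γ * q) f β) (hw0 : 0 < w.im) :
    (TT Ψ f u cc mm w).im ≤ (Ψ w).im + mm * w.im + w.im ^ 2 := by
  rw [TT_im]
  have h1 := hf.pos w hw0.le
  have h6 := sq_nonneg (w.re - u)
  linarith

/-- the lateral strip -/
theorem strip_w {B cc c₁ : ℝ} (hf : D1 A u r ρ (2 * B + 3) M C₀ (X + 1 / q) (γ * q) f β)
    (hB : |mm| ≤ B) (hr : 0 < r) (hM : 1 ≤ M) (hρ : 2 * ρ₁ ≤ ρ) (hρ1 : ρ₁ ≤ 1)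
    (hrρ : r ≤ ρ₁) (hc₁ : 0 < c₁) (hc : 72 * (2 * B + 3) * c₁ ≤ 1)
    (hw0 : 0 < w.im) (hwρ : ‖w - u‖ ≤ ρ₁) (h4 : w.im ≤ 2 * hh c₁ r M (w.re - u)) :
    (TT Ψ f u cc mm w).im ≤ (Ψ w).im - hh c₁ r M (w.re - u) := by
  have hwi : w.im ≤ ρ₁ := by
    have := (Complex.abs_im_le_norm (w - u)).trans hwρ
    simp only [sub_im, ofReal_im, sub_zero] at this
    exact (le_abs_self _).trans this
  have hwr : |w.re - u| ≤ ρ₁ := by
    have := (Complex.abs_re_le_norm (w - u)).trans hwρ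
    simpa using this
  have hB0 : 0 ≤ B := (abs_nonneg _).trans hB
  have hp1 := pr_le (x := w.re - u) hr hM
  have hp0 := pr_pos (x := w.re - u) hr hM
  have hx0 := abs_nonneg (w.re - u)
  have hsq : (w.re - u) ^ 2 ≤ |w.re - u| := by
    rw [← sq_abs, pow_two]
    have : |w.re - u| ≤ 1 := hwr.trans hρ1
    nlinarith
  have hc2 : c₁ ≤ 1 / 216 := by nlinarith
  have hwl : w.im ≤ (r + |w.re - u|) / 4 := by
    have e1 : pr r M (w.re - u) + (w.re - u) ^ 2 ≤ 2 * (r + |w.re - u|) := by linarith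
    have e2 : hh c₁ r M (w.re - u) ≤ 1 / 216 * (2 * (r + |w.re - u|)) := by
      unfold hh
      exact mul_le_mul hc2 e1 (by positivity) (by norm_num)
    linarith
  have h1 := hf.low2 hr hM (by linarith) (w := w) (by linarith) (by linarith) hw0.le hwl
  rw [TT_im]
  have h2 : mm * w.im ≤ B * w.im := mul_le_mul_of_nonneg_right ((le_abs_self _).trans hB) hw0.le
  have h3 : w.im ^ 2 ≤ 1 * w.im := by
    rw [pow_two]; exact mul_le_mul_of_nonneg_right (hwi.trans hρ1) hw0.le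
  have h5 : (B + 1) * w.im ≤ (B + 1) * (2 * hh c₁ r M (w.re - u)) :=
    mul_le_mul_of_nonneg_left h4 (by linarith)
  have h6 : (2 * B + 3) * hh c₁ r M (w.re - u) ≤ (pr r M (w.re - u) + (w.re - u) ^ 2) / 72 := by
    unfold hh
    have : (2 * B + 3) * c₁ ≤ 1 / 72 := by linarith
    have := mul_le_mul_of_nonneg_right this
      (by positivity : 0 ≤ pr r M (w.re - u) + (w.re - u) ^ 2)
    linarith
  have h7 := sq_nonneg (w.re - u)
  linarith
end

end Vale.Agent.P097.H400
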