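import Vale.Agent.P097.H400.GeoC

/-! # P097 / row A5.W-GEO, part 4: existence of the disc, uniform in the window -/

set_option linter.all false

open Complex Metric Filter Topology Set

namespace Vale.Agent.P097.H400

open Vale.Agent.P097.H85 Vale.Agent.P097.H929

section
variable {Mk : Set (ℂ × ℂ)} {b m : ℝ} {Ψ : ℂ → ℂ} {A : Set ℝ} {P : ℝ → ℂ} {c k : ℝ → ℝ}

theorem contC (hU : CmpU Mk b m Ψ A P c k) : ContinuousOn c A := by
  obtain ⟨S, hS⟩ := hU.bd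
  rw [Metric.continuousOn_iff]
  intro a ha ε hε
  obtain ⟨ρ, hρ, hc⟩ := hU.cmp (1 / 4) (by norm_num) (min (ε / 8) 1) (by positivity)
  refine ⟨ρ / 5, by positivity, fun x hx hxa => ?_⟩
  rw [Real.dist_eq] at hxa ⊢
  have h1 := (cmp_two (hc a ha) (hc x hx) (by norm_num) (by positivity) (min_le_right _ _)
    (hS a ha) (hS x hx) (by linarith)).1
  have h2 : min (ε / 8) 1 ≤ ε / 8 := min_le_left _ _
  linarith

theorem contP (hU : CmpU Mk b m Ψ A P c k) : ContinuousOn P A := by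
  obtain ⟨S, hS⟩ := hU.bd
  rw [Metric.continuousOn_iff]
  intro a ha ε hε
  have hS0 : 0 ≤ S := (abs_nonneg _).trans (hS a ha).1
  obtain ⟨ρ, hρ, hc⟩ := hU.cmp (1 / 4) (by norm_num) 1 (by norm_num)
  refine ⟨min (ρ / 5) (ε / (10 * S + 6)), by positivity, fun x hx hxa => ?_⟩
  rw [Real.dist_eq] at hxa
  rw [dist_eq_norm]
  have h0 := lt_of_lt_of_le hxa (min_le_left _ _)
  have h1 := (cmp_two (hc a ha) (hc x hx) (by norm_num) (by norm_num) (le_refl _)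
    (hS a ha) (hS x hx) (by linarith)).2.2
  have h2 := lt_of_lt_of_le hxa (min_le_right _ _)
  rw [lt_div_iff₀ (by positivity)] at h2
  have h3 := abs_nonneg (x - a)
  have h4 : (10 * S + 5) * |x - a| ≤ |x - a| * (10 * S + 6) := by nlinarith
  linarith

theorem compact_low {Wb Q : Set ℂ} (hW : IsCompact Wb) (hΨ : ContinuousOn Ψ Wb)
    (hQ : IsCompact Q) : IsCompact ((fun x : ℂ × ℂ => (Ψ x.1 + x.2, x.1)) '' (Wb ×ˢ Q)) := by
  apply (hW.prod hQ).image_of_continuousOn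
  have h1 : ContinuousOn (fun x : ℂ × ℂ => Ψ x.1) (Wb ×ˢ Q) :=
    hΨ.comp continuous_fst.continuousOn (fun x hx => hx.1)
  exact (h1.add continuous_snd.continuousOn).prodMk continuous_fst.continuousOn

theorem compact_high {A' : Set ℝ} (hA : IsCompact A') {g₁ g₂ : ℝ → ℝ} (h1 : ContinuousOn g₁ A')
    (h2 : ContinuousOn g₂ A') {D Wb : Set ℂ} (hD : IsCompact D) (hW : IsCompact Wb) (s : ℝ) :
    IsCompact {p : ℂ × ℂ | p.1 ∈ D ∧ p.2 ∈ Wb ∧ ∃ a ∈ A', |p.2.re - a| ≤ 4 * p.2.im ∧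
      p.1.im ≤ g₁ a + g₂ a * (p.2.re - a) + s * p.2.im} := by
  set Z : Set (ℝ × (ℂ × ℂ)) := A' ×ˢ (D ×ˢ Wb) with hZ
  have hZc : IsCompact Z := hA.prod (hD.prod hW)
  set G : ℝ × (ℂ × ℂ) → ℝ × ℝ := fun x => (4 * x.2.2.im - |x.2.2.re - x.1|,
    g₁ x.1 + g₂ x.1 * (x.2.2.re - x.1) + s * x.2.2.im - x.2.1.im) with hG
  have e1 : ContinuousOn (fun x : ℝ × (ℂ × ℂ) => g₁ x.1) Z :=
    h1.comp continuous_fst.continuousOn (fun x hx => hx.1)
  have e2 : ContinuousOn (fun x : ℝ × (ℂ × ℂ) => g₂ x.1) Z :=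
    h2.comp continuous_fst.continuousOn (fun x hx => hx.1)
  have e3 : Continuous (fun x : ℝ × (ℂ × ℂ) => x.2.2.re) :=
    continuous_re.comp (continuous_snd.comp continuous_snd)
  have e4 : Continuous (fun x : ℝ × (ℂ × ℂ) => x.2.2.im) :=
    continuous_im.comp (continuous_snd.comp continuous_snd)
  have e5 : Continuous (fun x : ℝ × (ℂ × ℂ) => x.2.1.im) :=
    continuous_im.comp (continuous_fst.comp continuous_snd)
  have e6 : Continuous (fun x : ℝ × (ℂ × ℂ) => x.1) := continuous_fst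
  have hGc : ContinuousOn G Z := by
    apply ContinuousOn.prodMk
    · exact ((continuous_const.mul e4).sub ((e3.sub e6).abs)).continuousOn
    · exact ((e1.add (e2.mul (e3.sub e6).continuousOn)).add
        (continuous_const.mul e4).continuousOn).sub e5.continuousOn
  have hcl : IsClosed (Z ∩ G ⁻¹' (Ici 0 ×ˢ Ici 0)) :=
    hGc.preimage_isClosed_of_isClosed hZc.isClosed (isClosed_Ici.prod isClosed_Ici)
  have hco : IsCompact (Z ∩ G ⁻¹' (Ici 0 ×ˢ Ici 0)) :=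
    hZc.of_isClosed_subset hcl inter_subset_left
  have := hco.image (continuous_snd (X := ℝ) (Y := ℂ × ℂ))
  apply this.of_isClosed_subset _ _
  · have heq : {p : ℂ × ℂ | p.1 ∈ D ∧ p.2 ∈ Wb ∧ ∃ a ∈ A', |p.2.re - a| ≤ 4 * p.2.im ∧
        p.1.im ≤ g₁ a + g₂ a * (p.2.re - a) + s * p.2.im} =
        Prod.snd '' (Z ∩ G ⁻¹' (Ici 0 ×ˢ Ici 0)) := by
      ext p
      constructor
      · rintro ⟨q1, q2, a, q3, q4, q5⟩
        refine ⟨(a, p), ⟨⟨q3, q1, q2⟩, ?_, ?_⟩, rfl⟩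
        · show (0 : ℝ) ≤ 4 * p.2.im - |p.2.re - a|
          linarith
        · show (0 : ℝ) ≤ g₁ a + g₂ a * (p.2.re - a) + s * p.2.im - p.1.im
          linarith
      · rintro ⟨⟨a, p'⟩, ⟨⟨q3, q1, q2⟩, q4, q5⟩, rfl⟩
        have q4' : (0 : ℝ) ≤ 4 * p'.2.im - |p'.2.re - a| := q4
        have q5' : (0 : ℝ) ≤ g₁ a + g₂ a * (p'.2.re - a) + s * p'.2.im - p'.1.im := q5
        exact ⟨q1, q2, a, q3, by simp only; linarith, by simp only; linarith⟩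
    rw [heq]
    exact this.isClosed
  · rintro p ⟨q1, q2, a, q3, q4, q5⟩
    refine ⟨(a, p), ⟨⟨q3, q1, q2⟩, ?_, ?_⟩, rfl⟩
    · show (0 : ℝ) ≤ 4 * p.2.im - |p.2.re - a|
      linarith
    · show (0 : ℝ) ≤ g₁ a + g₂ a * (p.2.re - a) + s * p.2.im - p.1.im
      linarith

variable {S X q s₁ s' γ u a y r ρ ρc ρ₁ M C₀ : ℝ} {f : ℂ → ℂ} {β : ℝ} {t₁ w₁ w : ℂ}

/-- all the numerical conditions on the radius -/
structure Num (b m S X q s₁ s' γ ρ ρc C₀ d₁ rw ρ₁ : ℝ) : Prop where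
  p : 0 < ρ₁
  one : ρ₁ ≤ 1
  rho : 2 * ρ₁ ≤ ρ
  gam : ρ₁ ≤ γ
  rc : 50 * ρ₁ ≤ ρc
  dd : 20 * ρ₁ ≤ d₁
  E : (2 * Cl S X q s₁ C₀ + (60 * S + 30)) * ρ₁ ≤ d₁ / 4
  mb : 2 * Cl S X q s₁ C₀ * ρ₁ ≤ (m - b) / 2
  win : 5 * ρ₁ ≤ rw

theorem Cl_pos (hS : 0 ≤ S) (hX : 1 ≤ X) (hq : 0 < q) (hC₀ : 0 ≤ C₀) : 1 ≤ Cl S X q s₁ C₀ := by
  have hB := Bd_pos (s₁ := s₁) hS hX hq
  have hX0 : 0 ≤ X := by linarith
  have hB0 : 0 ≤ Bd S X q s₁ := by linarith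
  have h1 : 0 ≤ 2 * X * (2 * S + 1) := by positivity
  have h2 : 0 ≤ Bd S X q s₁ * X := by positivity
  unfold Cl
  linarith

theorem ex_num {rw d₁ : ℝ} (hS : 0 ≤ S) (hX : 1 ≤ X) (hq : 0 < q) (hC₀ : 0 ≤ C₀) (hbm : b < m)
    (hγ : 0 < γ) (hρ : 0 < ρ) (hρc : 0 < ρc) (hd : 0 < d₁) (hrw : 0 < rw) :
    ∃ ρ₁, Num b m S X q s₁ s' γ ρ ρc C₀ d₁ rw ρ₁ := by
  have hC := Cl_pos (s₁ := s₁) hS hX hq hC₀
  set C' := Cl S X q s₁ C₀ with hC'
  have hC0 : 0 < C' := by linarith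
  have hmb : 0 < m - b := by linarith
  have hE : 0 < 2 * C' + (60 * S + 30) := by positivity
  have h1 : ∀ᶠ x : ℝ in 𝓝[>] 0, x ≤ 1 := by
    filter_upwards [Ioo_mem_nhdsGT (zero_lt_one)] with x hx using hx.2.le
  have h2 : ∀ {κ v : ℝ}, 0 < κ → 0 < v → ∀ᶠ x : ℝ in 𝓝[>] 0, κ * x ≤ v := by
    intro κ v hκ hv
    filter_upwards [Ioo_mem_nhdsGT (show (0 : ℝ) < v / κ by positivity)] with x hx
    have := hx.2.le
    rwa [le_div_iff₀ hκ, mul_comm] at this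
  have h3 : ∀ᶠ x : ℝ in 𝓝[>] 0, 0 < x := by
    filter_upwards [self_mem_nhdsWithin] with x hx using hx
  obtain ⟨x, x0, x1, x2, x3, x4, x5, x6, x7, x8⟩ := (h3.and (h1.and ((h2 (κ := 2) (by norm_num)
    hρ).and ((h2 (κ := 1) (by norm_num) hγ).and ((h2 (κ := 50) (by norm_num) hρc).and
    ((h2 (κ := 20) (by norm_num) hd).and ((h2 hE (show 0 < d₁ / 4 by positivity)).and
    ((h2 (κ := 2 * C') (by positivity) (show 0 < (m - b) / 2 by positivity)).and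
    (h2 (κ := 5) (by norm_num) hrw))))))))).exists
  exact ⟨x, x0, x1, x2, by linarith, x4, x5, x6, x7, x8⟩

/-- position of the points of the disc -/
theorem pos_w {d₁ rw : ℝ} (hN : Num b m S X q s₁ s' γ ρ ρc C₀ d₁ rw ρ₁)
    (hcmp : ∀ a ∈ A, Cmp Mk b m Ψ a ρc (P a) (c a) (k a) (q / (4 * X)) (γ * q / (8 * X)))
    (hS : ∀ a ∈ A, |c a| ≤ S ∧ |k a| ≤ S) (hu : u ∈ A)
    (hf : D1 A u r ρ (2 * Bd S X q s₁ + 3) M C₀ (X + 1 / q) (γ * q) f β)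
    (h : Tg X q s₁ u y r (P u).im (c u) t₁ w₁)
    (hr : 0 < r) (hq : 0 < q) (hq1 : q ≤ 1) (hX : 1 ≤ X) (hγ : 0 < γ) (hγ1 : γ ≤ 1 / 8)
    (hγs : s₁ + 6 * γ ≤ s') (hM : 1 ≤ M) (hC₀ : 0 ≤ C₀)
    (hrc : X * r < ρc) (hr1 : X ^ 2 * r ≤ γ * q) (hrρ : r ≤ ρ₁)
    (hw0 : 0 < w.im) (hwρ : ‖w - u‖ ≤ ρ₁) :
    (b + m) / 2 ≤ (TT Ψ f u (ccE Ψ f u t₁ w₁) (mmE Ψ f u t₁ w₁) w).im ∧
    ((TT Ψ f u (ccE Ψ f u t₁ w₁) (mmE Ψ f u t₁ w₁) w).im ≤ (Ψ w).im - w.im / 2 ∨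
      ∃ a ∈ A, |a - u| ≤ 5 * ρ₁ ∧ |w.re - a| ≤ 4 * w.im ∧
        (TT Ψ f u (ccE Ψ f u t₁ w₁) (mmE Ψ f u t₁ w₁) w).im ≤
          (P a).im + c a * (w.re - a) + s' * w.im ∧
        |(TT Ψ f u (ccE Ψ f u t₁ w₁) (mmE Ψ f u t₁ w₁) w).re - y| ≤
          (2 * Cl S X q s₁ C₀ + (60 * S + 30)) * ρ₁) := by
  have hS0 : 0 ≤ S := (abs_nonneg _).trans (hS u hu).1
  have hC := Cl_pos (s₁ := s₁) hS0 hX hq hC₀
  obtain ⟨hB1, hB2⟩ := slope_bounds (hcmp u hu) hf h (hS u hu) hr hq hq1 hX hγ hγ1 hrc hr1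
  have hl := TT_lateral (hcmp u hu) hf h (hS u hu) hr hq hq1 hX hγ hγ1 hrc hr1 hC₀ hw0.le
    (by have := hN.rho; have := hN.p; linarith) (hwρ.trans hN.one)
  set mm := mmE Ψ f u t₁ w₁ with hmm
  set cc := ccE Ψ f u t₁ w₁ with hcc
  have hwi : w.im ≤ ρ₁ := by
    have := (Complex.abs_im_le_norm (w - u)).trans hwρ
    simp only [sub_im, ofReal_im, sub_zero] at this
    exact (le_abs_self _).trans this
  have hwr : |w.re - u| ≤ ρ₁ := by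
    have := (Complex.abs_re_le_norm (w - u)).trans hwρ
    simpa using this
  have hl2 : ‖TT Ψ f u cc mm w - Ψ w - ((y - (P u).re : ℝ) : ℂ)‖ ≤
      2 * Cl S X q s₁ C₀ * ρ₁ := by
    refine hl.trans ?_
    have : r + ‖w - u‖ ≤ 2 * ρ₁ := by linarith
    have := mul_le_mul_of_nonneg_left this (by linarith : 0 ≤ Cl S X q s₁ C₀)
    linarith
  have hli := (Complex.abs_im_le_norm _).trans hl2
  have hlr := (Complex.abs_re_le_norm _).trans hl2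
  simp only [sub_im, ofReal_im, sub_zero, sub_re, ofReal_re] at hli hlr
  have hli' := abs_le.1 hli
  have hbd := (hcmp u hu).bdd w (by have := hN.rc; have := hN.p; linarith) hw0
    (by have := hN.rc; have := hN.p; linarith)
  refine ⟨by have := hN.mb; linarith, ?_⟩
  rcases le_or_gt (4 * w.im) (infDist w.re A) with h4 | h4
  · left
    exact far_w hf hB1 hr hM hu hN.rho hN.one hw0 hwρ h4
  · right
    rw [infDist_lt_iff ⟨u, hu⟩] at h4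
    obtain ⟨a, ha, h4⟩ := h4
    rw [Real.dist_eq] at h4
    have hna := near_a (mm := mm) (s₁ := s₁) (hcmp u hu) (hcmp a ha) (hS u hu) (hS a ha) hq hq1
      hX hγ hγ1 (by have := hN.rc; have := hN.p; linarith) hN.gam hw0 hwρ h4.le
    refine ⟨a, ha, hna.2.2, h4.le, ?_, ?_⟩
    · have e1 := upper_w (Ψ := Ψ) (cc := cc) (mm := mm) hf hw0
      have e2 := hna.1 hB2
      have e3 := mul_le_mul_of_nonneg_right hγs hw0.le
      linarith
    · have e1 := (Complex.abs_re_le_norm _).trans hna.2.1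
      simp only [sub_re] at e1
      have e2 := abs_le.1 e1
      have e3 := abs_le.1 hlr
      rw [abs_le]
      constructor
      · linarith
      · linarith
end

end Vale.Agent.P097.H400
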