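import Vale.Agent.P097.H400.GeoD

/-! # P097 / row A5.W-GEO, part 5: the theorem -/

set_option linter.all false

open Complex Metric Filter Topology Set

namespace Vale.Agent.P097.H400

open Vale.Agent.P097.H85 Vale.Agent.P097.H929

section
variable {Mk : Set (ℂ × ℂ)} {b m : ℝ} {Ψ : ℂ → ℂ} {A : Set ℝ} {P : ℝ → ℂ} {c k : ℝ → ℝ}

/-- the target is inside -/
theorem inside_w {X q s₁ u y r c₁ M ρ₁ : ℝ} {t₁ w₁ : ℂ}
    (h : Tg X q s₁ u y r (P u).im (c u) t₁ w₁) (hr : 0 < r) (hq : 0 < q) (hX : 1 ≤ X)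
    (hM : 1 ≤ M) (hc₁ : 0 < c₁) (hcq : 8 * (1 + 2 * X) * c₁ ≤ q) (hr1 : 2 * X * r < ρ₁)
    (hXr : X * r ≤ 1) : ‖w₁ - u‖ < ρ₁ ∧ 2 * hh c₁ r M (w₁.re - u) < w₁.im := by
  refine ⟨lt_of_le_of_lt (h.norm hr hq) hr1, ?_⟩
  have h1 := pr_le (x := w₁.re - u) hr hM
  have h2 := h.wr
  have h3 : (w₁.re - u) ^ 2 ≤ X * r := by
    rw [← sq_abs, pow_two]
    have h4 := abs_nonneg (w₁.re - u)
    have h5 : |w₁.re - u| * |w₁.re - u| ≤ (X * r) * 1 :=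
      mul_le_mul h2 (h2.trans hXr) h4 (by positivity)
    linarith
  have h6 : hh c₁ r M (w₁.re - u) ≤ c₁ * ((1 + 2 * X) * r) := by
    unfold hh
    apply mul_le_mul_of_nonneg_left _ hc₁.le
    linarith
  have h7 : 8 * (1 + 2 * X) * c₁ * r ≤ q * r := mul_le_mul_of_nonneg_right hcq hr.le
  have h8 : 8 * (c₁ * ((1 + 2 * X) * r)) = 8 * (1 + 2 * X) * c₁ * r := by ring
  have h9 := h.wl
  have h10 : 0 < q * r := by positivity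
  linarith

/-- height on the arc -/
theorem arc_im {u r c₁ M ρ₁ : ℝ} {w : ℂ} (hr : 0 < r) (hM : 1 ≤ M) (hc₁ : 0 < c₁)
    (hc : c₁ ≤ 1) (hρ₁ : 0 < ρ₁) (h1 : ρ₁ ≤ 1) (h0 : 0 < w.im) (hw : ‖w - u‖ = ρ₁)
    (hs : hh c₁ r M (w.re - u) ≤ w.im) : c₁ * ρ₁ ^ 2 / 4 ≤ w.im := by
  rcases le_or_gt (ρ₁ / 2) |w.re - u| with h | h
  · have e1 : (ρ₁ / 2) ^ 2 ≤ (w.re - u) ^ 2 := by
      rw [← sq_abs (w.re - u)]
      exact pow_le_pow_left₀ (by positivity) h 2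
    have e2 := pr_pos (x := w.re - u) hr hM
    have e3 : c₁ * (ρ₁ / 2) ^ 2 ≤ hh c₁ r M (w.re - u) := by
      unfold hh
      apply mul_le_mul_of_nonneg_left _ hc₁.le
      linarith
    have e4 : c₁ * (ρ₁ / 2) ^ 2 = c₁ * ρ₁ ^ 2 / 4 := by ring
    linarith
  · have e1 := Complex.norm_le_abs_re_add_abs_im (w - u)
    simp only [sub_re, ofReal_re, sub_im, ofReal_im, sub_zero, abs_of_pos h0] at e1
    have e2 : ρ₁ / 2 ≤ w.im := by linarith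
    have e3 : c₁ * ρ₁ ^ 2 ≤ 1 * (ρ₁ * 1) := by
      rw [pow_two]
      exact mul_le_mul hc (mul_le_mul_of_nonneg_left h1 hρ₁.le) (by positivity) (by norm_num)
    linarith

/-- compact set for the low points of the arc -/
theorem kc_low {ρc cst ε us u₀ d ρ₁ η R₁ : ℝ}
    (hc : Cmp Mk b m Ψ us ρc (P us) (c us) (k us) cst ε) (hbm : b < m) (hus : |us - u₀| < d)
    (hd : 2 * d + ρ₁ < ρc) (hη : 0 < η) (hd0 : 0 < d) :
    ∃ Kl : Set (ℂ × ℂ), IsCompact Kl ∧ Kl ⊆ Mk ∧ ∀ t w : ℂ, |w.re - u₀| ≤ d + ρ₁ → η ≤ w.im →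
      w.im ≤ ρ₁ → |t.re - (Ψ w).re| ≤ R₁ → (Ψ w).im - (m - b) / 2 ≤ t.im →
      t.im ≤ (Ψ w).im - η / 2 → (t, w) ∈ Kl := by
  set Wb : Set ℂ := Icc (u₀ - (d + ρ₁)) (u₀ + (d + ρ₁)) ×ℂ Icc η ρ₁ with hWb
  have hWbc : IsCompact Wb := isCompact_Icc.reProdIm isCompact_Icc
  set Q : Set ℂ := Icc (-R₁) R₁ ×ℂ Icc (-((m - b) / 2)) (-(η / 2)) with hQ
  have hQc : IsCompact Q := isCompact_Icc.reProdIm isCompact_Icc
  have husd := abs_lt.1 hus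
  have hWbu : ∀ w ∈ Wb, |w.re - us| < ρc ∧ 0 < w.im ∧ w.im < ρc := by
    rintro w ⟨h3, h4⟩
    simp only [mem_preimage, mem_Icc] at h3 h4
    refine ⟨?_, lt_of_lt_of_le hη h4.1, by linarith⟩
    rw [abs_lt]
    constructor <;> linarith
  refine ⟨(fun x : ℂ × ℂ => (Ψ x.1 + x.2, x.1)) '' (Wb ×ˢ Q), ?_, ?_, ?_⟩
  · apply compact_low hWbc _ hQc
    exact hc.hol.continuousOn.mono (fun w hw => hWbu w hw)
  · rintro _ ⟨⟨w, t⟩, ⟨h1, h2⟩, rfl⟩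
    obtain ⟨g1, g2, g3⟩ := hWbu w h1
    have h5 := hc.bdd w g1 g2 g3
    obtain ⟨-, h6⟩ := h2
    simp only [mem_preimage, mem_Icc] at h6
    apply hc.base _ _ g1 g2 g3
    · simp only [add_im]; linarith
    · simp only [add_im]; linarith
  · intro t w h1 h2 h3 h4 h5 h6
    have h1' := abs_le.1 h1
    have h4' := abs_le.1 h4
    refine ⟨(w, t - Ψ w), ⟨⟨?_, ?_⟩, ⟨?_, ?_⟩⟩, ?_⟩
    · exact ⟨by linarith, by linarith⟩
    · exact ⟨h2, h3⟩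
    · simp only [mem_preimage, sub_re, mem_Icc]
      constructor <;> linarith
    · simp only [mem_preimage, sub_im, mem_Icc]
      constructor <;> linarith
    · simp

/-- the points of a window belong to `Mk` -/
theorem mem_high {y₀ u₀ s' d₁ rw e₁ ρ₁ : ℝ}
    (hwin : ∀ u' ∈ A, |u' - u₀| < d₁ → ∀ y' : ℝ, |y' - y₀| < d₁ → ∀ r' : ℝ, 0 < r' → r' < rw →
      Win b u' (P u').im (c u') y' r' s' (1 / 4) 0 ⊆ Mk) (he : e₁ < d₁) (hrw : 4 * ρ₁ < rw)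
    {t w : ℂ} {a : ℝ} (ha : a ∈ A) (ha0 : |a - u₀| ≤ e₁) (h0 : 0 < w.im) (h1 : w.im ≤ ρ₁)
    (hy : |t.re - y₀| ≤ e₁) (hb : b < t.im) (h4 : |w.re - a| ≤ 4 * w.im)
    (hs : t.im ≤ (P a).im + c a * (w.re - a) + s' * w.im) : (t, w) ∈ Mk := by
  apply hwin a ha (lt_of_le_of_lt ha0 he) t.re (lt_of_le_of_lt hy he) (4 * w.im) (by positivity)
    (by linarith)
  refine ⟨h4, ?_, ?_, ?_, hb, hs⟩
  · simp only; linarith
  · simp only; linarith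
  · simp

/-- compact set for the high points of the arc -/
theorem kc_high {y₀ u₀ s' d₁ rw e₁ ρ₁ η S CP d : ℝ} (hA : IsCompact A) (hP : ContinuousOn P A)
    (hc : ContinuousOn c A) (hCP : ∀ a ∈ A, ‖P a‖ ≤ CP) (hS : ∀ a ∈ A, |c a| ≤ S)
    (hwin : ∀ u' ∈ A, |u' - u₀| < d₁ → ∀ y' : ℝ, |y' - y₀| < d₁ → ∀ r' : ℝ, 0 < r' → r' < rw →
      Win b u' (P u').im (c u') y' r' s' (1 / 4) 0 ⊆ Mk) (he : e₁ < d₁) (hrw : 4 * ρ₁ < rw)
    (hη : 0 < η) (hρ : ρ₁ ≤ 1) (hbm : b < m) :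
    ∃ Kh : Set (ℂ × ℂ), IsCompact Kh ∧ Kh ⊆ Mk ∧ ∀ t w : ℂ, |w.re - u₀| ≤ d + ρ₁ → η ≤ w.im →
      w.im ≤ ρ₁ → (b + m) / 2 ≤ t.im → |t.re - y₀| ≤ e₁ → (∃ a ∈ A, |a - u₀| ≤ e₁ ∧
        |w.re - a| ≤ 4 * w.im ∧ t.im ≤ (P a).im + c a * (w.re - a) + s' * w.im) →
      (t, w) ∈ Kh := by
  set Wb : Set ℂ := Icc (u₀ - (d + ρ₁)) (u₀ + (d + ρ₁)) ×ℂ Icc η ρ₁ with hWb
  have hWbc : IsCompact Wb := isCompact_Icc.reProdIm isCompact_Icc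
  set D : Set ℂ := Icc (y₀ - e₁) (y₀ + e₁) ×ℂ Icc ((b + m) / 2) (CP + 4 * S + |s'|) with hD
  have hDc : IsCompact D := isCompact_Icc.reProdIm isCompact_Icc
  set A' : Set ℝ := A ∩ Icc (u₀ - e₁) (u₀ + e₁) with hA'
  have hA'c : IsCompact A' := hA.inter_right isClosed_Icc
  refine ⟨{p : ℂ × ℂ | p.1 ∈ D ∧ p.2 ∈ Wb ∧ ∃ a ∈ A', |p.2.re - a| ≤ 4 * p.2.im ∧
    p.1.im ≤ (P a).im + c a * (p.2.re - a) + s' * p.2.im}, ?_, ?_, ?_⟩
  · apply compact_high hA'c _ _ hDc hWbc s'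
    · exact (continuous_im.comp_continuousOn hP).mono inter_subset_left
    · exact hc.mono inter_subset_left
  · rintro ⟨t, w⟩ ⟨⟨h1, h2⟩, ⟨h3, h4⟩, a, ⟨ha, h5⟩, h6, h7⟩
    simp only [mem_preimage, mem_Icc] at h1 h2 h3 h4 h5 h6 h7
    refine mem_high (Mk := Mk) hwin he hrw ha ?_ (lt_of_lt_of_le hη h4.1) h4.2 ?_ (by linarith)
      h6 h7
    · rw [abs_le]; constructor <;> linarith
    · rw [abs_le]; constructor <;> linarith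
  · rintro t w h1 h2 h3 h4 h5 ⟨a, ha, e1, e2, e3⟩
    have h1' := abs_le.1 h1
    have h5' := abs_le.1 h5
    have e1' := abs_le.1 e1
    have hS0 : 0 ≤ S := (abs_nonneg _).trans (hS a ha)
    refine ⟨⟨⟨by linarith, by linarith⟩, ⟨h4, ?_⟩⟩, ⟨⟨by linarith, by linarith⟩, ⟨h2, h3⟩⟩,
      a, ⟨ha, ⟨by linarith, by linarith⟩⟩, e2, e3⟩
    have f1 : (P a).im ≤ CP := (le_abs_self _).trans ((Complex.abs_im_le_norm _).trans (hCP a ha))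
    have f2 : c a * (w.re - a) ≤ 4 * S := by
      refine (le_abs_self _).trans ?_
      rw [abs_mul]
      have : |c a| * |w.re - a| ≤ S * (4 * 1) :=
        mul_le_mul (hS a ha) (by linarith) (abs_nonneg _) hS0
      linarith
    have f3 : s' * w.im ≤ |s'| := by
      have f4 := le_abs_self s'
      have f5 := abs_nonneg s'
      have f6 : s' * w.im ≤ |s'| * 1 :=
        mul_le_mul f4 (h3.trans hρ) (by linarith) f5
      linarith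
    linarith
end

end Vale.Agent.P097.H400
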