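import Vale.Agent.P097.H400.GeoE

/-! # P097 / row A5.W-GEO, part 6: the theorem -/

set_option linter.all false

open Complex Metric Filter Topology Set

namespace Vale.Agent.P097.H400

open Vale.Agent.P097.H85 Vale.Agent.P097.H929

section
variable {Mk : Set (ℂ × ℂ)} {b m : ℝ} {Ψ : ℂ → ℂ} {A : Set ℝ} {P : ℝ → ℂ} {c k : ℝ → ℝ}
variable {S X q s₁ s' γ u y r ρ ρc ρ₁ M C₀ : ℝ} {f : ℂ → ℂ} {β : ℝ} {t₁ w₁ w : ℂ}

/-- position of the points of the disc with respect to `Mk` and the compact sets -/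
theorem mem_w {u₀ y₀ d d₁ rw : ℝ} {Kl Kh : Set (ℂ × ℂ)} {CP : ℝ}
    (hN : Num b m S X q s₁ s' γ ρ ρc C₀ d₁ rw ρ₁)
    (hcmp : ∀ a ∈ A, Cmp Mk b m Ψ a ρc (P a) (c a) (k a) (q / (4 * X)) (γ * q / (8 * X)))
    (hS : ∀ a ∈ A, |c a| ≤ S ∧ |k a| ≤ S) (hu : u ∈ A) (hu0 : |u - u₀| < d)
    (hCP : ∀ a ∈ A, ‖P a‖ ≤ CP) (hd1 : d ≤ d₁ / 2) (hbm : b < m)
    (hwin : ∀ u' ∈ A, |u' - u₀| < d₁ → ∀ y' : ℝ, |y' - y₀| < d₁ → ∀ r' : ℝ, 0 < r' → r' < rw →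
      Win b u' (P u').im (c u') y' r' s' (1 / 4) 0 ⊆ Mk)
    {η : ℝ} (hl : ∀ t w : ℂ, |w.re - u₀| ≤ d + ρ₁ → η ≤ w.im →
      w.im ≤ ρ₁ → |t.re - (Ψ w).re| ≤ 2 * Cl S X q s₁ C₀ * ρ₁ + |y₀| + d + CP →
      (Ψ w).im - (m - b) / 2 ≤ t.im → t.im ≤ (Ψ w).im - η / 2 → (t, w) ∈ Kl)
    (hh' : ∀ t w : ℂ, |w.re - u₀| ≤ d + ρ₁ → η ≤ w.im →
      w.im ≤ ρ₁ → (b + m) / 2 ≤ t.im → |t.re - y₀| ≤ 3 * d₁ / 4 → (∃ a ∈ A, |a - u₀| ≤ 3 * d₁ / 4 ∧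
        |w.re - a| ≤ 4 * w.im ∧ t.im ≤ (P a).im + c a * (w.re - a) + s' * w.im) →
      (t, w) ∈ Kh)
    (hf : D1 A u r ρ (2 * Bd S X q s₁ + 3) M C₀ (X + 1 / q) (γ * q) f β) (hy : |y - y₀| < d)
    (h : Tg X q s₁ u y r (P u).im (c u) t₁ w₁)
    (hr : 0 < r) (hq : 0 < q) (hq1 : q ≤ 1) (hX : 1 ≤ X) (hγ : 0 < γ) (hγ1 : γ ≤ 1 / 8)
    (hγs : s₁ + 6 * γ ≤ s') (hM : 1 ≤ M) (hC₀ : 0 ≤ C₀)
    (hrc : X * r < ρc) (hr1 : X ^ 2 * r ≤ γ * q) (hrρ : r ≤ ρ₁)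
    (hw0 : 0 < w.im) (hwρ : ‖w - u‖ ≤ ρ₁) :
    (TT Ψ f u (ccE Ψ f u t₁ w₁) (mmE Ψ f u t₁ w₁) w, w) ∈ Mk ∧
    (η ≤ w.im → (TT Ψ f u (ccE Ψ f u t₁ w₁) (mmE Ψ f u t₁ w₁) w, w) ∈ Kl ∪ Kh) := by
  have hS0 : 0 ≤ S := (abs_nonneg _).trans (hS u hu).1
  have hC := Cl_pos (s₁ := s₁) hS0 hX hq hC₀
  have hlat := TT_lateral (hcmp u hu) hf h (hS u hu) hr hq hq1 hX hγ hγ1 hrc hr1 hC₀ hw0.le
    (by have := hN.rho; have := hN.p; linarith) (hwρ.trans hN.one)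
  obtain ⟨p1, p2⟩ := pos_w (w := w) hN hcmp hS hu hf h hr hq hq1 hX hγ hγ1 hγs hM hC₀ hrc hr1 hrρ
    hw0 hwρ
  set T : ℂ := TT Ψ f u (ccE Ψ f u t₁ w₁) (mmE Ψ f u t₁ w₁) w with hT
  set C' := Cl S X q s₁ C₀ with hC'
  have hlat2 : ‖T - Ψ w - ((y - (P u).re : ℝ) : ℂ)‖ ≤ 2 * C' * ρ₁ := by
    refine hlat.trans ?_
    have : r + ‖w - u‖ ≤ 2 * ρ₁ := by linarith
    have := mul_le_mul_of_nonneg_left this (by linarith : 0 ≤ C')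
    linarith
  clear hlat h hf hr1 hrc hrρ hr
  have hwr : |w.re - u| ≤ ρ₁ := by
    have := (Complex.abs_re_le_norm (w - u)).trans hwρ
    simpa using this
  have hwi : w.im ≤ ρ₁ := by
    have := (Complex.abs_im_le_norm (w - u)).trans hwρ
    simp only [sub_im, ofReal_im, sub_zero] at this
    exact (le_abs_self _).trans this
  have hN0 := hN.p
  have hN3 := hN.rc
  have hN4 := hN.dd
  have hN5 := hN.E
  have hN6 := hN.mb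
  have hN7 := hN.win
  have hu0' := abs_lt.1 hu0
  have hy' := abs_lt.1 hy
  have hwr' := abs_le.1 hwr
  rcases p2 with p2 | ⟨a, ha, a1, a2, a3, a4⟩
  · refine ⟨(hcmp u hu).base _ _ (by linarith) hw0 (by linarith) (by linarith) (by linarith),
      fun hη => Or.inl (hl _ _ ?_ hη hwi ?_ ?_ (by linarith))⟩
    · rw [abs_le]; constructor <;> linarith
    · have f1 := (Complex.abs_re_le_norm _).trans hlat2
      simp only [sub_re, ofReal_re] at f1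
      have f3 := abs_le.1 f1
      have f4 := abs_le.1 ((Complex.abs_re_le_norm _).trans (hCP u hu))
      have f5 := neg_abs_le y₀
      have f6 := le_abs_self y₀
      rw [abs_le]; constructor <;> linarith
    · have f1 := (Complex.abs_im_le_norm _).trans hlat2
      simp only [sub_im, ofReal_im, sub_zero] at f1
      have f3 := abs_le.1 f1
      linarith
  · have a1' := abs_le.1 a1
    have a4' := abs_le.1 a4
    have g1 : |a - u₀| ≤ 3 * d₁ / 4 := by rw [abs_le]; constructor <;> linarith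
    have g2 : |T.re - y₀| ≤ 3 * d₁ / 4 := by rw [abs_le]; constructor <;> linarith
    refine ⟨mem_high hwin (by linarith) (by linarith) ha g1 hw0 hwi g2 (by linarith) a2 a3,
      fun hη => Or.inr (hh' _ _ ?_ hη hwi p1 g2 ⟨a, ha, g1, a2, a3⟩)⟩
    rw [abs_le]; constructor <;> linarith

/-- **The disc through every target of a window, uniformly in the window.** -/
theorem geo (hU : CmpU Mk b m Ψ A P c k) (hA : IsCompact A) (hbm : b < m) {y₀ u₀ s₁ s' : ℝ}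
    (hR : RegB Mk b A P c y₀ u₀ s') (hs : s₁ < s') {X q : ℝ} (hX : 1 ≤ X) (hq : 0 < q)
    (hq1 : q ≤ 1) :
    ∃ K₀ > 0, ∃ ε₀ > 0, ∀ M C₀ ρ : ℝ, 1 ≤ M → 0 ≤ C₀ → 0 < ρ →
      ∃ d > 0, ∃ ρ₁ > 0, ∃ c₁ > 0, ∃ C' > 0, ∃ r₀ > 0, ρ₁ ≤ ρ ∧ ρ₁ ≤ 1 ∧ c₁ ≤ 1 ∧
      ∃ Kc : Set (ℂ × ℂ), IsCompact Kc ∧ Kc ⊆ Mk ∧
        ∀ u ∈ A, |u - u₀| < d → ∀ r : ℝ, 0 < r → r < r₀ → ∀ (f : ℂ → ℂ) (β : ℝ),
          D1 A u r ρ K₀ M C₀ (X + 1 / q) ε₀ f β → ∀ y : ℝ, |y - y₀| < d → ∀ t₁ w₁ : ℂ,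
          Tg X q s₁ u y r (P u).im (c u) t₁ w₁ →
          ∃ T : ℂ → ℂ, Disc Mk b m Ψ P M ρ₁ c₁ C' Kc u r y t₁ w₁ T := by
  obtain ⟨S', hS'⟩ := hU.bd
  obtain ⟨S, hS0, hS⟩ : ∃ S : ℝ, 0 ≤ S ∧ ∀ a ∈ A, |c a| ≤ S ∧ |k a| ≤ S :=
    ⟨max S' 0, le_max_right _ _, fun a ha =>
      ⟨(hS' a ha).1.trans (le_max_left _ _), (hS' a ha).2.trans (le_max_left _ _)⟩⟩
  obtain ⟨γ, hγ, hγ1, hγs⟩ : ∃ γ : ℝ, 0 < γ ∧ γ ≤ 1 / 8 ∧ s₁ + 6 * γ ≤ s' := by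
    refine ⟨min ((s' - s₁) / 8) (1 / 8), lt_min (by linarith) (by norm_num), min_le_right _ _, ?_⟩
    have := min_le_left ((s' - s₁) / 8) (1 / 8)
    linarith
  have hB := Bd_pos (s₁ := s₁) hS0 hX hq
  obtain ⟨ρc, hρc, hcmp⟩ := hU.cmp (q / (4 * X)) (by positivity) (γ * q / (8 * X)) (by positivity)
  obtain ⟨d₁, hd₁, hwin⟩ := hR
  obtain ⟨rw, hrw, hwin⟩ := hwin (1 / 4) (by norm_num) 0
  obtain ⟨CP, hCP⟩ := hA.exists_bound_of_continuousOn (contP hU)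
  refine ⟨2 * Bd S X q s₁ + 3, by linarith, γ * q, by positivity, fun M C₀ ρ hM hC₀ hρ => ?_⟩
  obtain ⟨ρ₁, hN⟩ := ex_num (s' := s') (s₁ := s₁) hS0 hX hq hC₀ hbm hγ hρ hρc hd₁ hrw
  have hC := Cl_pos (s₁ := s₁) hS0 hX hq hC₀
  have hN0 := hN.p
  have hN1 := hN.one
  have hN2 := hN.rho
  have hN3 := hN.rc
  have hN4 := hN.dd
  have hN7 := hN.win
  obtain ⟨c₁, hc₁, hcB, hcq, hc1⟩ : ∃ c₁ : ℝ, 0 < c₁ ∧ 72 * (2 * Bd S X q s₁ + 3) * c₁ ≤ 1 ∧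
      8 * (1 + 2 * X) * c₁ ≤ q ∧ c₁ ≤ 1 := by
    refine ⟨min (1 / (72 * (2 * Bd S X q s₁ + 3))) (min (q / (8 * (1 + 2 * X))) 1),
      lt_min (by positivity) (lt_min (by positivity) (by norm_num)), ?_, ?_, ?_⟩
    · have := min_le_left (1 / (72 * (2 * Bd S X q s₁ + 3))) (min (q / (8 * (1 + 2 * X))) 1)
      rwa [le_div_iff₀ (by positivity), mul_comm] at this
    · have := (min_le_right (1 / (72 * (2 * Bd S X q s₁ + 3)))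
        (min (q / (8 * (1 + 2 * X))) 1)).trans (min_le_left _ _)
      rwa [le_div_iff₀ (by positivity), mul_comm] at this
    · exact (min_le_right _ _).trans (min_le_right _ _)
  obtain ⟨r₀, hr₀, hr₀1, hr₀2⟩ : ∃ r₀ : ℝ, 0 < r₀ ∧ 4 * X * r₀ ≤ ρ₁ ∧ X ^ 2 * r₀ ≤ γ * q := by
    refine ⟨min (ρ₁ / (4 * X)) (γ * q / X ^ 2), lt_min (by positivity) (by positivity), ?_, ?_⟩
    · have := min_le_left (ρ₁ / (4 * X)) (γ * q / X ^ 2)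
      rwa [le_div_iff₀ (by positivity), mul_comm] at this
    · have := min_le_right (ρ₁ / (4 * X)) (γ * q / X ^ 2)
      rwa [le_div_iff₀ (by positivity), mul_comm] at this
  obtain ⟨d, hd, hdd, hdc⟩ : ∃ d : ℝ, 0 < d ∧ d ≤ d₁ / 2 ∧ d ≤ ρc / 8 :=
    ⟨min (d₁ / 2) (ρc / 8), lt_min (by positivity) (by positivity), min_le_left _ _,
      min_le_right _ _⟩
  by_cases hne : ∃ u' ∈ A, |u' - u₀| < d
  swap
  · refine ⟨d, hd, ρ₁, hN0, c₁, hc₁, Cl S X q s₁ C₀, by linarith, r₀, hr₀, by linarith, hN1, hc1,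
      ∅, isCompact_empty, empty_subset _, fun u hu hu0 => ?_⟩
    exact absurd ⟨u, hu, hu0⟩ hne
  obtain ⟨us, hus, husd⟩ := hne
  obtain ⟨Kl, hKlc, hKlM, hl⟩ := kc_low (R₁ := 2 * Cl S X q s₁ C₀ * ρ₁ + |y₀| + d + CP)
    (ρ₁ := ρ₁) (η := c₁ * ρ₁ ^ 2 / 4) (hcmp us hus) hbm husd (by linarith) (by positivity) hd
  obtain ⟨Kh, hKhc, hKhM, hh'⟩ := kc_high (d := d) (e₁ := 3 * d₁ / 4) (ρ₁ := ρ₁) (b := b) (m := m)
    (η := c₁ * ρ₁ ^ 2 / 4) hA (contP hU) (contC hU) hCP (fun a ha => (hS a ha).1) hwin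
    (by linarith) (by linarith) (by positivity) hN1 hbm
  refine ⟨d, hd, ρ₁, hN0, c₁, hc₁, Cl S X q s₁ C₀, by linarith, r₀, hr₀, by linarith, hN1, hc1,
    Kl ∪ Kh, hKlc.union hKhc, union_subset hKlM hKhM, ?_⟩
  intro u hu hu0 r hr hrr f β hf y hy t₁ w₁ h
  have hr4 : 4 * X * r ≤ ρ₁ := by
    have := mul_le_mul_of_nonneg_left hrr.le (by positivity : 0 ≤ 4 * X)
    linarith
  have hrγ : X ^ 2 * r ≤ γ * q := by
    have := mul_le_mul_of_nonneg_left hrr.le (by positivity : 0 ≤ X ^ 2)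
    linarith
  have hrX : r ≤ X * r := by
    have := mul_le_mul_of_nonneg_right hX hr.le
    linarith
  have hrρ : r ≤ ρ₁ := by linarith
  have hrc : X * r < ρc := by linarith
  obtain ⟨hB1, hB2⟩ := slope_bounds (hcmp u hu) hf h (hS u hu) hr hq hq1 hX hγ hγ1 hrc hrγ
  have hw₁0 : 0 < w₁.im := lt_of_lt_of_le (by positivity) h.wl
  refine ⟨TT Ψ f u (ccE Ψ f u t₁ w₁) (mmE Ψ f u t₁ w₁), ?_, TT_target Ψ f u t₁ hw₁0.ne',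
    inside_w h hr hq hX hM hc₁ hcq (by linarith) (by linarith), ?_, ?_, ?_, ?_, ?_⟩
  · obtain ⟨δ, hδ, hfh⟩ := hf.hol
    apply TT_diff
    · refine (hcmp u hu).hol.mono (fun w hw => ?_)
      have e1 := (Complex.abs_re_le_norm (w - u))
      have e2 := (Complex.abs_im_le_norm (w - u))
      simp only [sub_re, ofReal_re, sub_im, ofReal_im, sub_zero] at e1 e2
      rw [abs_of_pos hw.2] at e2
      have e3 := hw.1
      exact ⟨by linarith, hw.2, by linarith⟩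
    · refine hfh.mono (fun w hw => ?_)
      have := hw.2
      simp only [mem_setOf_eq] at this ⊢
      linarith
  · intro w hw0 hwρ
    exact (mem_w hN hcmp hS hu hu0 hCP hdd hbm hwin hl hh' hf hy h hr hq hq1 hX hγ hγ1 hγs hM hC₀
      hrc hrγ hrρ hw0 hwρ).1
  · intro w hw0 hwρ
    exact (pos_w (w := w) hN hcmp hS hu hf h hr hq hq1 hX hγ hγ1 hγs hM hC₀ hrc hrγ hrρ
      hw0 hwρ).1
  · intro w hw0 hwρ h4
    exact strip_w hf hB1 hr hM hN2 hN1 hrρ hc₁ hcB hw0 hwρ h4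
  · intro w hw0 hwρ
    exact TT_lateral (hcmp u hu) hf h (hS u hu) hr hq hq1 hX hγ hγ1 hrc hrγ hC₀ hw0.le
      (by linarith) (hwρ.trans hN1)
  · intro w hw0 hwρ hst
    exact (mem_w hN hcmp hS hu hu0 hCP hdd hbm hwin hl hh' hf hy h hr hq hq1 hX hγ hγ1 hγs hM hC₀
      hrc hrγ hrρ hw0 hwρ.le).2 (arc_im hr hM hc₁ hc1 hN0 hN1 hw0 hwρ hst)
end

end Vale.Agent.P097.H400
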